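import Vale.Agent.P004.I2
import Vale.Agent.P004.J
import Vale.Agent.P004G.H253.TwDefs

/-!
# P004G, module D : the sum over `j` (`Tw.StJs`)
-/

open Real MeasureTheory Set Filter
open scoped ENNReal Topology

namespace P004G

variable [Crv]

namespace Tw

open P004

lemma sum_sqf (K : ℕ) (P : ℝ) (hP : 0 ≤ P)
    (h : ∀ y ≤ K, sumJ y ≤ ENNReal.ofReal (P * y)) :
    ∑ j ∈ sqf K, ENNReal.ofReal (1 / √(j : ℝ)) * (Jm j + 1) ≤
      ENNReal.ofReal (2 * (P + 1) * √(K : ℝ)) := by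
  classical
  have e : ∑ j ∈ sqf K, ENNReal.ofReal (1 / √(j : ℝ)) * (Jm j + 1) =
      ∑ j ∈ Finset.Icc 1 K, ENNReal.ofReal (1 / √(j : ℝ)) *
        (if Squarefree j then Jm j + 1 else 0) := by
    unfold sqf
    rw [Finset.sum_filter]
    refine Finset.sum_congr rfl fun j _ => ?_
    split_ifs <;> simp
  rw [e]
  apply JMod.abel _ _ _ (by linarith)
  intro y hy
  have e2 : ∑ j ∈ Finset.Icc 1 y, (if Squarefree j then Jm j + 1 else 0) =
      sumJ y + ((sqf y).card : ℝ≥0∞) := by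
    unfold sumJ sqf
    rw [← Finset.sum_filter, Finset.sum_add_distrib]
    simp
  rw [e2]
  have h3 : ((sqf y).card : ℝ≥0∞) ≤ ENNReal.ofReal y := by
    rw [ENNReal.ofReal_natCast]
    have : (sqf y).card ≤ y := by
      calc (sqf y).card ≤ (Finset.Icc 1 y).card := Finset.card_filter_le _ _
        _ = y := by simp
    exact_mod_cast this
  calc sumJ y + ((sqf y).card : ℝ≥0∞) ≤ ENNReal.ofReal (P * y) + ENNReal.ofReal y :=
        add_le_add (h y hy) h3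
    _ = ENNReal.ofReal ((P + 1) * y) := by
        rw [← ENNReal.ofReal_add (by positivity) (by positivity)]
        congr 1; ring

lemma sumJ_mono {a b : ℕ} (h : a ≤ b) : sumJ a ≤ sumJ b := by
  unfold sumJ
  apply Finset.sum_le_sum_of_subset
  intro x hx
  simp only [sqf, Finset.mem_filter, Finset.mem_Icc] at hx ⊢
  exact ⟨⟨hx.1.1, hx.1.2.trans h⟩, hx.2⟩

lemma sumJ_lin {C : ℝ} (hC : 1 ≤ C) {A : ℕ}
    (hF : ∀ X : ℕ, 3 ≤ X → sumJ X ≤ ENNReal.ofReal (C * X * Real.log X ^ A)) {l : ℝ} (hl : 1 ≤ l)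
    {y : ℕ} (hy : Real.log y ≤ l) : sumJ y ≤ ENNReal.ofReal ((3 * C * 2 ^ A * l ^ A) * y) := by
  have hl1 : 1 ≤ l ^ A := one_le_pow₀ hl
  have h21 : (1 : ℝ) ≤ 2 ^ A := one_le_pow₀ (by norm_num)
  rcases Nat.lt_or_ge y 3 with h3 | h3
  · rcases Nat.eq_zero_or_pos y with rfl | hy0
    · simp [sumJ, sqf]
    · have hy1 : (1 : ℝ) ≤ y := by exact_mod_cast hy0
      refine (sumJ_mono h3.le).trans ((hF 3 le_rfl).trans (ENNReal.ofReal_le_ofReal ?_))
      have hlog0 : 0 ≤ Real.log ((3 : ℕ) : ℝ) := Real.log_nonneg (by norm_num)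
      have hlog : Real.log ((3 : ℕ) : ℝ) ≤ 2 := by
        have := Real.log_le_sub_one_of_pos (show (0 : ℝ) < ((3 : ℕ) : ℝ) by norm_num)
        push_cast at this ⊢
        linarith
      calc C * ((3 : ℕ) : ℝ) * Real.log ((3 : ℕ) : ℝ) ^ A ≤ C * ((3 : ℕ) : ℝ) * 2 ^ A := by gcongr
        _ = (3 * C * 2 ^ A * 1) * 1 := by push_cast; ring
        _ ≤ (3 * C * 2 ^ A * l ^ A) * y := by gcongr
  · refine (hF y h3).trans (ENNReal.ofReal_le_ofReal ?_)
    have hlog0 : 0 ≤ Real.log (y : ℝ) := Real.log_natCast_nonneg y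
    calc C * (y : ℝ) * Real.log y ^ A ≤ C * y * l ^ A := by gcongr
      _ = (1 * C * 1 * l ^ A) * y := by ring
      _ ≤ (3 * C * 2 ^ A * l ^ A) * y := by
        gcongr
        norm_num

/-- the sum over `j` -/
theorem pfJs (hFull : StFull) (hD : StDiv) : StJs := by
  intro A
  obtain ⟨C, hC1, A', hF⟩ := hFull
  obtain ⟨C2, hC2, A2, h2⟩ := hD.1 A
  refine ⟨Real.exp 250 * (2 * (3 * C * 2 ^ A' * 1000 ^ A' + 1)) * ((C2 + 1) * 8 ^ A2), ?_,
    A' + A2, ?_⟩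
  · have e1 : (1 : ℝ) ≤ Real.exp 250 := Real.one_le_exp (by norm_num)
    have e2 : (1 : ℝ) ≤ 2 * (3 * C * 2 ^ A' * 1000 ^ A' + 1) := by
      have : 0 ≤ 3 * C * 2 ^ A' * 1000 ^ A' := by positivity
      linarith
    have e3 : (1 : ℝ) ≤ (C2 + 1) * 8 ^ A2 := by
      have : (1 : ℝ) ≤ 8 ^ A2 := one_le_pow₀ (by norm_num)
      nlinarith
    calc (1 : ℝ) = 1 * 1 * 1 := by ring
      _ ≤ _ := by gcongr
  intro L H M hL hH hM hLM W D hW
  set θ : ℝ := 1 / (8 * L) with hθ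
  have hθ0 : 0 < θ := by positivity
  have hθ1 : θ ≤ 1 := by
    rw [hθ, div_le_one (by positivity)]; linarith
  have hH0 : 0 < H := by linarith
  set K : ℕ := ⌊M / H⌋₊ with hK
  set P : ℝ := 3 * C * 2 ^ A' * (1000 * L) ^ A' with hP
  have hP0 : 0 ≤ P := by positivity
  have hsqH : 0 < √H := Real.sqrt_pos.2 hH0
  have hMH : 0 < M / H := by positivity
  have hKle : (K : ℝ) ≤ M / H := Nat.floor_le hMH.le
  have hM2 : M ^ (2 * θ) ≤ Real.exp 250 := by
    rw [Real.rpow_def_of_pos hM]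
    apply Real.exp_le_exp.2
    calc Real.log M * (2 * θ) ≤ (1000 * L) * (2 * θ) := by gcongr
      _ = 250 := by rw [hθ]; field_simp; norm_num
  have hMH1 : M / H ≤ M := div_le_self hM.le hH
  -- the sum over `j₁`
  have hs1 : ∑ j ∈ sqf K, ENNReal.ofReal (1 / √(j : ℝ)) * (Jm j + 1) ≤
      ENNReal.ofReal (2 * (P + 1) * √(K : ℝ)) := by
    refine sum_sqf K P hP0 fun y hy => ?_
    refine sumJ_lin hC1 hF (l := 1000 * L) (by linarith) ?_
    rcases Nat.eq_zero_or_pos y with rfl | hy0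
    · simp; linarith
    · have hy1 : (1 : ℝ) ≤ y := by exact_mod_cast hy0
      refine le_trans (Real.log_le_log (by linarith) ?_) hLM
      calc (y : ℝ) ≤ K := by exact_mod_cast hy
        _ ≤ M / H := hKle
        _ ≤ M := hMH1
  -- the sum over `j₂`
  have hs2 : ∑ j ∈ Finset.Icc 1 K, ENNReal.ofReal (dv j ^ A * (j : ℝ) ^ (-1 - θ)) ≤
      ENNReal.ofReal (C2 * (1 / θ) ^ A2) :=
    (ENNReal.sum_le_tsum _).trans (h2 θ hθ0 hθ1)
  set c : ℝ := Real.exp 250 * (1 / √H) with hc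
  have hc0 : 0 ≤ c := by positivity
  calc ∑ j ∈ Finset.Icc 1 K, W j
      ≤ ∑ p ∈ (sqf K ×ˢ Finset.Icc 1 K).filter (fun p => p.1 * p.2 ^ 2 ≤ K),
          W (p.1 * p.2 ^ 2) := I2Mod.regroup W K
    _ ≤ ∑ p ∈ (sqf K ×ˢ Finset.Icc 1 K).filter (fun p => p.1 * p.2 ^ 2 ≤ K),
          D * ENNReal.ofReal c * ((ENNReal.ofReal (1 / √(p.1 : ℝ)) * (Jm p.1 + 1)) *
            ENNReal.ofReal (dv p.2 ^ A * (p.2 : ℝ) ^ (-1 - θ))) := by
        apply Finset.sum_le_sum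
        rintro ⟨j₁, j₂⟩ hp
        simp only [Finset.mem_filter, Finset.mem_product, sqf, Finset.mem_Icc] at hp
        obtain ⟨⟨⟨⟨h1, _⟩, hsq⟩, ⟨h2, _⟩⟩, hle⟩ := hp
        refine (hW j₁ j₂ hsq (by omega)).trans ?_
        have hd2 := I2Mod.dv_nonneg j₂
        have hBB : ((j₁ * j₂ ^ 2 : ℕ) : ℝ) * H ≤ M := by
          rw [← le_div_iff₀ hH0]
          exact (Nat.le_floor_iff hMH.le).1 hle
        have hw := I2Mod.weight_le θ H M hθ0 hH j₁ j₂ h1 h2 hBB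
        have hX : 0 ≤ dv j₂ ^ A * (j₂ : ℝ) ^ (-1 - θ) := by positivity
        have e : D * ENNReal.ofReal c * ((ENNReal.ofReal (1 / √(j₁ : ℝ)) * (Jm j₁ + 1)) *
            ENNReal.ofReal (dv j₂ ^ A * (j₂ : ℝ) ^ (-1 - θ))) =
            D * ENNReal.ofReal (c * ((1 / √(j₁ : ℝ)) * (dv j₂ ^ A * (j₂ : ℝ) ^ (-1 - θ)))) *
              (Jm j₁ + 1) := by
          rw [ENNReal.ofReal_mul (p := c) hc0,
            ENNReal.ofReal_mul (p := 1 / √(j₁ : ℝ)) (by positivity)]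
          ring
        dsimp only
        rw [e]
        refine mul_le_mul' (mul_le_mul' le_rfl (ENNReal.ofReal_le_ofReal ?_)) le_rfl
        calc dv j₂ ^ A * (((j₁ * j₂ ^ 2 : ℕ) : ℝ) * H) ^ (-1 / 2 + θ)
            ≤ dv j₂ ^ A * (M ^ (2 * θ) * (1 / √H) *
              ((j₂ : ℝ) ^ (-1 - θ) * (1 / √(j₁ : ℝ)))) := by gcongr
          _ ≤ dv j₂ ^ A * (Real.exp 250 * (1 / √H) *
              ((j₂ : ℝ) ^ (-1 - θ) * (1 / √(j₁ : ℝ)))) := by gcongr
          _ = _ := by rw [hc]; ring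
    _ ≤ ∑ p ∈ sqf K ×ˢ Finset.Icc 1 K,
          D * ENNReal.ofReal c * ((ENNReal.ofReal (1 / √(p.1 : ℝ)) * (Jm p.1 + 1)) *
            ENNReal.ofReal (dv p.2 ^ A * (p.2 : ℝ) ^ (-1 - θ))) :=
        Finset.sum_le_sum_of_subset (Finset.filter_subset _ _)
    _ = D * ENNReal.ofReal c * ((∑ j ∈ sqf K, ENNReal.ofReal (1 / √(j : ℝ)) * (Jm j + 1)) *
          ∑ j₂ ∈ Finset.Icc 1 K, ENNReal.ofReal (dv j₂ ^ A * (j₂ : ℝ) ^ (-1 - θ))) := by
        rw [← Finset.mul_sum, Finset.sum_product, Finset.sum_mul_sum]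
    _ ≤ D * ENNReal.ofReal c * (ENNReal.ofReal (2 * (P + 1) * √(K : ℝ)) *
          ENNReal.ofReal (C2 * (1 / θ) ^ A2)) := by gcongr
    _ = D * ENNReal.ofReal (c * ((2 * (P + 1) * √(K : ℝ)) * (C2 * (1 / θ) ^ A2))) := by
        rw [ENNReal.ofReal_mul (p := c) hc0,
          ENNReal.ofReal_mul (p := 2 * (P + 1) * √(K : ℝ)) (by positivity)]
        ring
    _ ≤ _ := by
        refine mul_le_mul' le_rfl (ENNReal.ofReal_le_ofReal ?_)
        have hsK : √(K : ℝ) ≤ √M * (1 / √H) := by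
          rw [mul_one_div, ← Real.sqrt_div hM.le]
          exact Real.sqrt_le_sqrt hKle
        have hθ' : 1 / θ = 8 * L := by rw [hθ]; field_simp
        have hPL : P + 1 ≤ (3 * C * 2 ^ A' * 1000 ^ A' + 1) * L ^ A' := by
          have : 1 ≤ L ^ A' := one_le_pow₀ hL
          rw [hP, mul_pow]
          nlinarith
        have hHH : 1 / √H * (1 / √H) = 1 / H := by
          rw [div_mul_div_comm, one_mul, Real.mul_self_sqrt hH0.le]
        calc c * ((2 * (P + 1) * √(K : ℝ)) * (C2 * (1 / θ) ^ A2))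
            ≤ c * ((2 * ((3 * C * 2 ^ A' * 1000 ^ A' + 1) * L ^ A') * (√M * (1 / √H))) *
              ((C2 + 1) * (8 * L) ^ A2)) := by
              rw [hθ']
              gcongr
              linarith
          _ = Real.exp 250 * (2 * (3 * C * 2 ^ A' * 1000 ^ A' + 1)) * ((C2 + 1) * 8 ^ A2) *
              L ^ (A' + A2) * √M * (1 / √H * (1 / √H)) := by
              rw [hc, mul_pow, pow_add]; ring
          _ = _ := by rw [hHH]; ring

end Tw
end P004G
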