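import Vale.Agent.P004G.H2

/-!
# P004G, module D2 : separation of variables in `AG` (`StSep2`)
-/

open Real MeasureTheory Set
open scoped ENNReal

namespace P004G

variable [Crv]

namespace Sep2
open H2

/-- the base term (without coprimality conditions) -/
noncomputable def base2 (H : ℝ) (j : ℕ) (k : ℤ) (u₁ u₂ : ℝ) (g m₁ m₂ : ℕ) : ℝ :=
    (ca g : ℝ) ^ 2 * (lam m₁ * lam m₂) * chi k (m₁ * m₂) *
      (∑ d ∈ g.divisors, if d ∣ j then
        (ArithmeticFunction.moebius d : ℝ) / d *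
          Gk ((j : ℝ) * H / ((d : ℝ) ^ 2 * (m₁ * m₂))) else 0) *
      Real.exp (-π * g * (m₁ * u₁ + m₂ * u₂))

open Classical in
/-- the terms after opening the condition `(m₁, m₂) = 1` -/
noncomputable def Fe2 (H : ℝ) (R j : ℕ) (k : ℤ) (u₁ u₂ : ℝ) (g e m₁ m₂ : ℕ) : ℝ :=
  if Cnd R g m₁ m₂ ∧ e ∣ m₁ ∧ e ∣ m₂ then
    (ArithmeticFunction.moebius e : ℝ) * base2 H j k u₁ u₂ g m₁ m₂ else 0

lemma AGTerm_eq (H : ℝ) (R j : ℕ) (k : ℤ) (u₁ u₂ : ℝ) (g m₁ m₂ : ℕ) :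
    AGTerm H R j k u₁ u₂ (g, m₁, m₂) = ∑' e : ℕ, Fe2 H R j k u₁ u₂ g e m₁ m₂ := by
  classical
  unfold AGTerm Fe2
  simp only [cnd_iff]
  by_cases hC : Cnd R g m₁ m₂
  · have hm : m₁.gcd m₂ ≠ 0 := by
      intro h
      have := hC.2.1.1.ne_zero
      exact this (Nat.eq_zero_of_gcd_eq_zero_left h)
    simp only [hC, true_and]
    rw [tsum_eq_sum (s := (m₁.gcd m₂).divisors)]
    · have : ∀ e ∈ (m₁.gcd m₂).divisors, (if e ∣ m₁ ∧ e ∣ m₂ then
          (ArithmeticFunction.moebius e : ℝ) * base2 H j k u₁ u₂ g m₁ m₂ else 0) =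
          (ArithmeticFunction.moebius e : ℝ) * base2 H j k u₁ u₂ g m₁ m₂ := by
        intro e he
        rw [Nat.mem_divisors, Nat.dvd_gcd_iff] at he
        rw [if_pos he.1]
      rw [Finset.sum_congr rfl this, ← Finset.sum_mul, sum_moebius_divisors]
      split_ifs with h
      · simp [base2]
      · simp
    · intro e he
      rw [Nat.mem_divisors, Nat.dvd_gcd_iff] at he
      rw [if_neg]
      exact fun h => he ⟨h, hm⟩
  · simp [hC]

lemma base2_le (hco : StCoef) (hk : StKer) (H : ℝ) (j : ℕ) (k : ℤ) (u₁ u₂ : ℝ) (g m₁ m₂ : ℕ) :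
    |base2 H j k u₁ u₂ g m₁ m₂| ≤ (ca g : ℝ) ^ 2 * (5040 * g) *
      ((m₁ * Real.exp (-(π * g * u₁) * m₁)) * (m₂ * Real.exp (-(π * g * u₂) * m₂))) := by
  unfold base2
  have h1 : |∑ d ∈ g.divisors, if d ∣ j then
        (ArithmeticFunction.moebius d : ℝ) / d *
          Gk ((j : ℝ) * H / ((d : ℝ) ^ 2 * (m₁ * m₂))) else 0| ≤ 5040 * g := by
    refine (Finset.abs_sum_le_sum_abs _ _).trans ?_
    have : ∀ d ∈ g.divisors, |if d ∣ j then
        (ArithmeticFunction.moebius d : ℝ) / d *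
          Gk ((j : ℝ) * H / ((d : ℝ) ^ 2 * (m₁ * m₂))) else 0| ≤ 5040 := by
      intro d _
      split_ifs
      · rw [abs_mul]
        calc _ ≤ 1 * 5040 := mul_le_mul (moebius_div_le d) (Gk_abs_le hk _) (abs_nonneg _)
              zero_le_one
          _ = 5040 := by norm_num
      · simp
    refine (Finset.sum_le_sum this).trans ?_
    rw [Finset.sum_const, nsmul_eq_mul, mul_comm]
    have := dv_le g
    unfold dv at this
    linarith
  have h2 : Real.exp (-π * g * (m₁ * u₁ + m₂ * u₂)) =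
      Real.exp (-(π * g * u₁) * m₁) * Real.exp (-(π * g * u₂) * m₂) := by
    rw [← Real.exp_add]; congr 1; ring
  rw [abs_mul, abs_mul, abs_mul, abs_mul, abs_mul, abs_of_nonneg (sq_nonneg _), h2, abs_mul,
    abs_of_pos (Real.exp_pos _), abs_of_pos (Real.exp_pos _)]
  have h3 := (lam_le hco m₁).trans (dv_le m₁)
  have h4 := (lam_le hco m₂).trans (dv_le m₂)
  have h5 := chi_le k (m₁ * m₂)
  calc (ca g : ℝ) ^ 2 * (|lam m₁| * |lam m₂|) * |chi k (m₁ * m₂)| * _ *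
        (Real.exp (-(π * g * u₁) * m₁) * Real.exp (-(π * g * u₂) * m₂))
      ≤ (ca g : ℝ) ^ 2 * (m₁ * m₂) * 1 * (5040 * g) *
        (Real.exp (-(π * g * u₁) * m₁) * Real.exp (-(π * g * u₂) * m₂)) := by gcongr
    _ = _ := by ring

lemma Fe2_le (hco : StCoef) (hk : StKer) (H : ℝ) (R j : ℕ) (k : ℤ) (u₁ u₂ : ℝ) (g e m₁ m₂ : ℕ) :
    |Fe2 H R j k u₁ u₂ g e m₁ m₂| ≤ (ca g : ℝ) ^ 2 * (5040 * g) *
      (((m₁ : ℝ) ^ 3 * Real.exp (-(π * g * u₁) * m₁)) *
        ((m₂ : ℝ) ^ 1 * Real.exp (-(π * g * u₂) * m₂)) * (1 / (e : ℝ) ^ 2)) := by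
  unfold Fe2
  split_ifs with h
  · have hm : m₁ ≠ 0 := h.1.2.1.1.ne_zero
    have he : 0 < e := Nat.pos_of_dvd_of_pos h.2.1 (Nat.pos_of_ne_zero hm)
    have hle : (e : ℝ) ≤ m₁ := by exact_mod_cast Nat.le_of_dvd (Nat.pos_of_ne_zero hm) h.2.1
    have he' : (0 : ℝ) < e := by exact_mod_cast he
    have h1 : |(ArithmeticFunction.moebius e : ℝ)| ≤ 1 := by
      have := ArithmeticFunction.abs_moebius_le_one (n := e)
      exact_mod_cast this
    have h2 : (1 : ℝ) ≤ (m₁ : ℝ) ^ 2 * (1 / (e : ℝ) ^ 2) := by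
      rw [mul_one_div, le_div_iff₀ (by positivity), one_mul]
      gcongr
    rw [abs_mul]
    calc _ ≤ 1 * |base2 H j k u₁ u₂ g m₁ m₂| := by gcongr
      _ ≤ 1 * ((ca g : ℝ) ^ 2 * (5040 * g) *
      ((m₁ * Real.exp (-(π * g * u₁) * m₁)) * (m₂ * Real.exp (-(π * g * u₂) * m₂)))) := by
          gcongr; exact base2_le hco hk H j k u₁ u₂ g m₁ m₂
      _ ≤ ((m₁ : ℝ) ^ 2 * (1 / (e : ℝ) ^ 2)) * ((ca g : ℝ) ^ 2 * (5040 * g) *
      ((m₁ * Real.exp (-(π * g * u₁) * m₁)) * (m₂ * Real.exp (-(π * g * u₂) * m₂)))) := by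
          gcongr
      _ = _ := by ring
  · simp only [abs_zero]; positivity

lemma summable_Fe2 (hco : StCoef) (hk : StKer) (H : ℝ) (R j : ℕ) (k : ℤ) (u₁ u₂ : ℝ) (hu₁ : 0 < u₁)
    (hu₂ : 0 < u₂) (g : ℕ) (hg : 0 < g) :
    Summable (fun t : (ℕ × ℕ) × ℕ => Fe2 H R j k u₁ u₂ g t.2 t.1.1 t.1.2) := by
  have hc₁ : 0 < π * g * u₁ := by positivity
  have hc₂ : 0 < π * g * u₂ := by positivity
  have s1 := Real.summable_pow_mul_exp_neg_nat_mul 3 hc₁
  have s2 := Real.summable_pow_mul_exp_neg_nat_mul 1 hc₂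
  have s3 : Summable (fun e : ℕ => 1 / (e : ℝ) ^ 2) :=
    Real.summable_one_div_nat_pow.mpr (by norm_num)
  have s4 := (s1.mul_of_nonneg s2 (fun _ => by positivity) (fun _ => by positivity))
  have s5 := (s4.mul_of_nonneg s3 (fun _ => by positivity) (fun _ => by positivity)).mul_left
    ((ca g : ℝ) ^ 2 * (5040 * g))
  refine Summable.of_norm_bounded s5 ?_
  rintro ⟨⟨m₁, m₂⟩, e⟩
  exact Fe2_le hco hk H R j k u₁ u₂ g e m₁ m₂

lemma AG_le (hco : StCoef) (hk : StKer) (H : ℝ) (R j : ℕ) (k : ℤ) (u₁ u₂ : ℝ) (hu₁ : 0 < u₁)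
    (hu₂ : 0 < u₂) :
    ENNReal.ofReal |AG H R j k u₁ u₂| ≤
      ∑' g : ℕ, ∑' e : ℕ, ‖∑' m : ℕ × ℕ, Fe2 H R j k u₁ u₂ g e m.1 m.2‖ₑ := by
  rw [← Real.enorm_eq_ofReal_abs]
  unfold AG
  by_cases hs : Summable (AGTerm H R j k u₁ u₂)
  · rw [hs.tsum_prod]
    refine enorm_tsum_le_tsum_enorm.trans (ENNReal.tsum_le_tsum fun g => ?_)
    refine le_trans (le_of_eq ?_) (enorm_tsum_le_tsum_enorm (f := fun e : ℕ =>
      ∑' m : ℕ × ℕ, Fe2 H R j k u₁ u₂ g e m.1 m.2))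
    congr 1
    have h1 : ∀ m : ℕ × ℕ, AGTerm H R j k u₁ u₂ (g, m) =
        ∑' e : ℕ, Fe2 H R j k u₁ u₂ g e m.1 m.2 :=
      fun m => AGTerm_eq H R j k u₁ u₂ g m.1 m.2
    simp_rw [h1]
    rcases Nat.eq_zero_or_pos g with hg | hg
    · subst hg
      have : ∀ (e : ℕ) (m : ℕ × ℕ), Fe2 H R j k u₁ u₂ 0 e m.1 m.2 = 0 := by
        intro e m
        unfold Fe2
        rw [if_neg]
        intro h
        exact not_squarefree_zero h.1.1.1
      simp [this]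
    · exact (Summable.tsum_comm (f := fun (m : ℕ × ℕ) (e : ℕ) =>
        Fe2 H R j k u₁ u₂ g e m.1 m.2)
        (summable_Fe2 hco hk H R j k u₁ u₂ hu₁ hu₂ g hg)).symm
  · rw [tsum_eq_zero_of_not_summable hs]
    simp

/-! ### one pair `(g, e)` -/

/-- the weight in `v` -/
noncomputable def Kc2 (θ H : ℝ) (j : ℕ) (k : ℤ) (g e : ℕ) (v : ℝ) : ℂ :=
  (((ArithmeticFunction.moebius e : ℝ) * (ca g : ℝ) ^ 2 * lam e ^ 2 * chi k e ^ 2 : ℝ) : ℂ) *
    kapc θ v * Complex.exp (-wv θ v * (Real.log (|((j : ℤ) : ℝ)| * H) : ℝ)) *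
    Complex.exp (wv θ v * (2 * Real.log e : ℝ)) * Dv θ v j g

lemma Kc2_norm (hco : StCoef) (θ H : ℝ) (hθ : 0 < θ) (hθ' : θ ≤ 1 / 8) (hH : 0 < H)
    (j : ℕ) (k : ℤ) (g e : ℕ) (hj : 0 < j) (he : 0 < e) (v C : ℝ) (hC : 0 < C)
    (hb : ‖kapc θ v‖ ≤ C * Real.exp (-3 * π * |v|)) :
    ‖Kc2 θ H j k g e v‖ ≤ C * (j * H) ^ (-1 / 2 + θ) *
      (g * dv g ^ 3 * (dv e ^ 2 * (e : ℝ) ^ (1 - 2 * θ))) * Real.exp (-3 * π * |v|) := by
  have hjH : 0 < (j : ℝ) * H := by positivity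
  have he' : (0 : ℝ) < e := by exact_mod_cast he
  have hre : (wv θ v).re = 1 / 2 - θ := by simp [wv]
  have h1 : ‖Complex.exp (-wv θ v * (Real.log (|((j : ℤ) : ℝ)| * H) : ℝ))‖ =
      (j * H) ^ (-1 / 2 + θ) := by
    rw [Complex.norm_exp, Complex.re_mul_ofReal, Complex.neg_re, hre, Real.rpow_def_of_pos hjH]
    simp only [Int.cast_natCast, Nat.abs_cast]
    congr 1; ring
  have h2 : ‖Complex.exp (wv θ v * (2 * Real.log e : ℝ))‖ = (e : ℝ) ^ (1 - 2 * θ) := by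
    rw [Complex.norm_exp, Complex.re_mul_ofReal, hre, Real.rpow_def_of_pos he']
    congr 1; ring
  have h3 : ‖Dv θ v j g‖ ≤ dv g := by
    unfold Dv
    refine (norm_sum_le _ _).trans ?_
    have : ∀ d ∈ g.divisors, ‖if (d : ℤ) ∣ (j : ℤ) then
      (((ArithmeticFunction.moebius d : ℝ) / d : ℝ) : ℂ) *
        Complex.exp (wv θ v * (2 * Real.log d : ℝ)) else 0‖ ≤ 1 := by
      intro d hd
      have hd0 : 0 < d := Nat.pos_of_mem_divisors hd
      have hd1 : (1 : ℝ) ≤ d := by exact_mod_cast hd0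
      split_ifs
      · rw [norm_mul, Complex.norm_exp, Complex.re_mul_ofReal, hre, Complex.norm_real,
          Real.norm_eq_abs, abs_div, abs_of_pos (by linarith : (0 : ℝ) < d)]
        have hmu : |(ArithmeticFunction.moebius d : ℝ)| ≤ 1 := by
          have := ArithmeticFunction.abs_moebius_le_one (n := d)
          exact_mod_cast this
        have hl : 0 ≤ Real.log d := Real.log_nonneg hd1
        have : Real.exp ((1 / 2 - θ) * (2 * Real.log d)) ≤ d := by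
          calc _ ≤ Real.exp (Real.log d) := by
                apply Real.exp_le_exp.mpr; nlinarith
            _ = d := Real.exp_log (by linarith)
        calc _ ≤ 1 / (d : ℝ) * d := by gcongr
          _ = 1 := by field_simp
      · simp
    refine (Finset.sum_le_sum this).trans ?_
    rw [Finset.sum_const, nsmul_eq_mul, mul_one]
    rfl
  have h4 : |(ArithmeticFunction.moebius e : ℝ) * (ca g : ℝ) ^ 2 * lam e ^ 2 *
      chi k e ^ 2| ≤ 1 * (g * dv g ^ 2) * dv e ^ 2 * 1 := by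
    rw [abs_mul, abs_mul, abs_mul, abs_pow (lam e), abs_pow (chi k e), abs_pow]
    have hmu : |(ArithmeticFunction.moebius e : ℝ)| ≤ 1 := by
      have := ArithmeticFunction.abs_moebius_le_one (n := e)
      exact_mod_cast this
    have hg : |(ca g : ℝ)| ^ 2 ≤ g * dv g ^ 2 := by
      calc |(ca g : ℝ)| ^ 2 ≤ (dv g * √(g : ℝ)) ^ 2 := by
            gcongr; exact hco.bound g
        _ = g * dv g ^ 2 := by
            rw [mul_pow, Real.sq_sqrt (by positivity)]; ring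
    have hx : |chi k e| ^ 2 ≤ 1 := by
      calc |chi k e| ^ 2 ≤ 1 ^ 2 := by gcongr; exact chi_le _ _
        _ = 1 := by norm_num
    have hle := lam_le hco e
    gcongr
  unfold Kc2
  rw [norm_mul, norm_mul, norm_mul, norm_mul, h1, h2, Complex.norm_real, Real.norm_eq_abs]
  have hd := dv_nonneg g
  have hde := dv_nonneg e
  calc _ ≤ (1 * (g * dv g ^ 2) * dv e ^ 2 * 1) * (C * Real.exp (-3 * π * |v|)) *
        (j * H) ^ (-1 / 2 + θ) * (e : ℝ) ^ (1 - 2 * θ) * dv g := by gcongr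
    _ = _ := by ring

lemma Kc2_cont (hk : StKer) (θ H : ℝ) (hθ : 0 < θ) (hθ' : θ ≤ 1 / 8) (j : ℕ) (k : ℤ) (g e : ℕ) :
    Continuous (Kc2 θ H j k g e) := by
  have h1 := hk.kcont θ hθ (by linarith)
  have h2 := wv_cont θ
  have h3 := Dv_cont θ j g
  unfold Kc2
  fun_prop

lemma Kc2_int (hco : StCoef) (hk : StKer) (θ H : ℝ) (hθ : 0 < θ) (hθ' : θ ≤ 1 / 8) (hH : 0 < H)
    (j : ℕ) (k : ℤ) (g e : ℕ) (hj : 0 < j) (he : 0 < e) : Integrable (Kc2 θ H j k g e) := by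
  obtain ⟨C, hC, hb⟩ := hk.kbound
  refine Integrable.mono' (integrable_expabs.const_mul (C * (j * H) ^ (-1 / 2 + θ) *
      (g * dv g ^ 3 * (dv e ^ 2 * (e : ℝ) ^ (1 - 2 * θ)))))
    (Kc2_cont hk θ H hθ hθ' j k g e).aestronglyMeasurable ?_
  exact Filter.Eventually.of_forall fun v =>
    Kc2_norm hco θ H hθ hθ' hH j k g e hj he v C hC (hb θ v hθ (by linarith))

/-- exchange of the sum over `(n₁, n₂)` and the integral -/
lemma tsum_integral2 (hco : StCoef) (θ : ℝ) (hθ : 0 < θ) (R : ℕ) (k : ℤ) (U₁ U₂ : ℝ)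
    (hU₁ : 0 < U₁) (hU₂ : 0 < U₂) (K : ℝ → ℂ) (hK : Integrable K) :
    ∑' t : ℕ × ℕ, ∫ v : ℝ, K v * (an θ R k U₁ t.1 v * an θ R k U₂ t.2 v) =
      ∫ v : ℝ, K v * (Tf θ v R k U₁ * Tf θ v R k U₂) := by
  have hc₁ : 0 < π * U₁ := by positivity
  have hc₂ : 0 < π * U₂ := by positivity
  have hs₁ := Real.summable_pow_mul_exp_neg_nat_mul 2 hc₁
  have hs₂ := Real.summable_pow_mul_exp_neg_nat_mul 2 hc₂
  have hF : ∀ t : ℕ × ℕ, Integrable
      (fun v => K v * (an θ R k U₁ t.1 v * an θ R k U₂ t.2 v)) := by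
    intro t
    refine Integrable.mono' (hK.norm.mul_const (((t.1 : ℝ) ^ 2 * Real.exp (-(π * U₁) * t.1)) *
      ((t.2 : ℝ) ^ 2 * Real.exp (-(π * U₂) * t.2))))
      (hK.aestronglyMeasurable.mul
        ((an_cont θ R k U₁ t.1).mul (an_cont θ R k U₂ t.2)).aestronglyMeasurable) ?_
    refine Filter.Eventually.of_forall fun v => ?_
    rw [norm_mul, norm_mul]
    have h1 := an_norm θ hθ R k U₁ t.1 v hco
    have h2 := an_norm θ hθ R k U₂ t.2 v hco
    gcongr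
  rw [integral_tsum_of_summable_integral_norm hF]
  · refine integral_congr_ae (Filter.Eventually.of_forall fun v => ?_)
    simp only
    rw [tsum_mul_left, Tf_eq, Tf_eq]
    congr 1
    have hn₁ : Summable (fun n => ‖an θ R k U₁ n v‖) :=
      Summable.of_nonneg_of_le (fun _ => norm_nonneg _)
        (fun n => an_norm θ hθ R k U₁ n v hco) hs₁
    have hn₂ : Summable (fun n => ‖an θ R k U₂ n v‖) :=
      Summable.of_nonneg_of_le (fun _ => norm_nonneg _)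
        (fun n => an_norm θ hθ R k U₂ n v hco) hs₂
    exact (tsum_mul_tsum_of_summable_norm hn₁ hn₂).symm
  · refine Summable.of_nonneg_of_le (fun _ => integral_nonneg fun _ => norm_nonneg _)
      (fun t => ?_) ((hs₁.mul_of_nonneg hs₂ (fun _ => by positivity)
        (fun _ => by positivity)).mul_left (∫ v, ‖K v‖))
    rw [← integral_mul_const]
    refine integral_mono_of_nonneg (Filter.Eventually.of_forall fun _ => norm_nonneg _)
      (hK.norm.mul_const _) (Filter.Eventually.of_forall fun v => ?_)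
    simp only
    rw [norm_mul, norm_mul]
    have h1 := an_norm θ hθ R k U₁ t.1 v hco
    have h2 := an_norm θ hθ R k U₂ t.2 v hco
    gcongr

/-- the sum over `d` with natural numbers, as in `H2.sum_Gk` -/
lemma sum_Gk2 (hk : StKer) (θ H : ℝ) (hθ : 0 < θ) (hθ' : θ ≤ 1 / 8) (hH : 0 < H) (j g : ℕ)
    (hj : 0 < j) (m₁ m₂ : ℕ) (h₁ : 0 < m₁) (h₂ : 0 < m₂) :
    ((∑ d ∈ g.divisors, if d ∣ j then
        (ArithmeticFunction.moebius d : ℝ) / d *
          Gk ((j : ℝ) * H / ((d : ℝ) ^ 2 * (m₁ * m₂))) else 0 : ℝ) : ℂ) =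
    ∫ v : ℝ, kapc θ v * Complex.exp (-wv θ v * (Real.log (|((j : ℤ) : ℝ)| * H) : ℝ)) *
      Dv θ v j g * Complex.exp (wv θ v * (Real.log m₁ + Real.log m₂ : ℝ)) := by
  rw [← sum_Gk hk θ H hθ hθ' hH (j : ℤ) g (by exact_mod_cast hj.ne') m₁ m₂ h₁ h₂]
  congr 1
  refine Finset.sum_congr rfl fun d _ => ?_
  simp only [Int.natCast_dvd_natCast, Int.cast_natCast, Nat.abs_cast]

lemma Fe2_eq_integral (hco : StCoef) (hk : StKer) (θ H : ℝ) (hθ : 0 < θ) (hθ' : θ ≤ 1 / 8)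
    (hH : 0 < H) (j : ℕ) (k : ℤ) (g e r : ℕ) (hj : 0 < j) (u₁ u₂ : ℝ)
    (hge : (Squarefree g ∧ g.Coprime r) ∧ Squarefree e ∧ e.Coprime (g * r)) (n₁ n₂ : ℕ) :
    ((Fe2 H r j k u₁ u₂ g e (e * n₁) (e * n₂) : ℝ) : ℂ) =
      ∫ v : ℝ, Kc2 θ H j k g e v *
        (an θ (e * g * r) k (u₁ * g * e) n₁ v * an θ (e * g * r) k (u₂ * g * e) n₂ v) := by
  classical
  unfold Fe2
  have hiff : (Cnd r g (e * n₁) (e * n₂) ∧ e ∣ e * n₁ ∧ e ∣ e * n₂) ↔
      (P (e * g * r) n₁ ∧ P (e * g * r) n₂) := by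
    rw [cnd_mul]
    simp only [dvd_mul_right, and_true]
    exact ⟨fun h => h.2, fun h => ⟨hge, h⟩⟩
  by_cases h : P (e * g * r) n₁ ∧ P (e * g * r) n₂
  · rw [if_pos (hiff.mpr h)]
    obtain ⟨h₁, h₂⟩ := h
    have hn₁ : 0 < n₁ := Nat.pos_of_ne_zero h₁.1.ne_zero
    have hn₂ : 0 < n₂ := Nat.pos_of_ne_zero h₂.1.ne_zero
    have he : 0 < e := Nat.pos_of_ne_zero hge.2.1.ne_zero
    have c₁ : e.Coprime n₁ := by
      have := h₁.2
      rw [mul_assoc, Nat.coprime_mul_iff_right] at this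
      exact this.1.symm
    have c₂ : e.Coprime n₂ := by
      have := h₂.2
      rw [mul_assoc, Nat.coprime_mul_iff_right] at this
      exact this.1.symm
    unfold base2
    rw [lam_mul hco e n₁ c₁, lam_mul hco e n₂ c₂, chi_mul k _ _ (by positivity) (by positivity),
      chi_mul k e n₁ (by positivity) (by positivity), chi_mul k e n₂ (by positivity)
      (by positivity), Complex.ofReal_mul, Complex.ofReal_mul, Complex.ofReal_mul,
      sum_Gk2 hk θ H hθ hθ' hH j g hj (e * n₁) (e * n₂) (by positivity) (by positivity)]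
    rw [← integral_const_mul, ← integral_mul_const, ← integral_const_mul]
    refine integral_congr_ae (Filter.Eventually.of_forall fun v => ?_)
    simp only
    unfold an Kc2
    rw [if_pos h₁, if_pos h₂]
    have e1 : Complex.exp (wv θ v * (Real.log (e * n₁ : ℕ) + Real.log (e * n₂ : ℕ) : ℝ)) =
        Complex.exp (wv θ v * (2 * Real.log e : ℝ)) *
        Complex.exp (wv θ v * (Real.log n₁ : ℝ)) * Complex.exp (wv θ v * (Real.log n₂ : ℝ)) := by
      rw [← Complex.exp_add, ← Complex.exp_add]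
      have he' : (0 : ℝ) < e := by exact_mod_cast he
      have h₁' : (0 : ℝ) < n₁ := by exact_mod_cast hn₁
      have h₂' : (0 : ℝ) < n₂ := by exact_mod_cast hn₂
      congr 1
      push_cast
      rw [Real.log_mul he'.ne' h₁'.ne', Real.log_mul he'.ne' h₂'.ne']
      push_cast
      ring
    have e2 : Real.exp (-π * g * ((e * n₁ : ℕ) * u₁ + (e * n₂ : ℕ) * u₂)) =
        Real.exp (-π * n₁ * (u₁ * g * e)) * Real.exp (-π * n₂ * (u₂ * g * e)) := by
      rw [← Real.exp_add]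
      congr 1
      push_cast
      ring
    have e3 := lam_cpow θ v n₁ hn₁
    have e4 := lam_cpow θ v n₂ hn₂
    rw [e1, e2]
    clear e1 e2
    generalize Complex.exp (wv θ v * (Real.log n₁ : ℝ)) = x1 at *
    generalize Complex.exp (wv θ v * (Real.log n₂ : ℝ)) = x2 at *
    generalize (n₁ : ℂ) ^ (-(θ : ℂ) + v * Complex.I) = y1 at *
    generalize (n₂ : ℂ) ^ (-(θ : ℂ) + v * Complex.I) = y2 at *
    generalize Complex.exp (wv θ v * (2 * Real.log e : ℝ)) = z1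
    generalize Complex.exp (-wv θ v * (Real.log (|((j : ℤ) : ℝ)| * H) : ℝ)) = z2
    generalize Real.exp (-π * n₁ * (u₁ * g * e)) = z3
    generalize Real.exp (-π * n₂ * (u₂ * g * e)) = z4
    push_cast
    linear_combination ((ArithmeticFunction.moebius e : ℂ) * (ca g : ℂ) ^ 2 *
      (lam e : ℂ) ^ 2 * (chi k e : ℂ) ^ 2 * kapc θ v * z2 * z1 * Dv θ v j g *
      (chi k n₁ * z3) * (chi k n₂ * z4)) *
      ((lam n₂ : ℂ) * x2 * e3 + (ca n₁ : ℂ) * y1 * e4)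
  · rw [if_neg (fun h' => h (hiff.mp h'))]
    have : ∀ v, an θ (e * g * r) k (u₁ * g * e) n₁ v *
        an θ (e * g * r) k (u₂ * g * e) n₂ v = 0 := by
      intro v
      unfold an
      by_cases h₁ : P (e * g * r) n₁
      · rw [if_neg (fun h₂ => h ⟨h₁, h₂⟩)]; simp
      · rw [if_neg h₁]; simp
    simp [this]

lemma one_pair2 (hco : StCoef) (hk : StKer) (θ H : ℝ) (hθ : 0 < θ) (hθ' : θ ≤ 1 / 8)
    (hH : 0 < H) (j : ℕ) (k : ℤ) (g e r : ℕ) (hj : 0 < j) (u₁ u₂ : ℝ) (hu₁ : 0 < u₁) (hu₂ : 0 < u₂)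
    (C : ℝ) (hC : 0 < C) (hb : ∀ v : ℝ, ‖kapc θ v‖ ≤ C * Real.exp (-3 * π * |v|)) :
    ‖∑' m : ℕ × ℕ, Fe2 H r j k u₁ u₂ g e m.1 m.2‖ₑ ≤
      ENNReal.ofReal (C * (j * H) ^ (-1 / 2 + θ)) *
      (ENNReal.ofReal (g * dv g ^ 3 * (dv e ^ 2 * (e : ℝ) ^ (1 - 2 * θ))) *
          ∫⁻ v : ℝ, ENNReal.ofReal (Real.exp (-3 * π * |v|) *
            (‖Tf θ v (e * g * r) k (u₁ * g * e)‖ * ‖Tf θ v (e * g * r) k (u₂ * g * e)‖))) := by
  by_cases hge : (Squarefree g ∧ g.Coprime r) ∧ Squarefree e ∧ e.Coprime (g * r)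
  · have he : 0 < e := Nat.pos_of_ne_zero hge.2.1.ne_zero
    have hg : 0 < g := Nat.pos_of_ne_zero hge.1.1.ne_zero
    have hU₁ : 0 < u₁ * g * e := by positivity
    have hU₂ : 0 < u₂ * g * e := by positivity
    -- reindex
    have hinj : Function.Injective (fun n : ℕ × ℕ => (e * n.1, e * n.2)) := by
      rintro ⟨a, b⟩ ⟨c, d⟩ h
      simp only [Prod.mk.injEq, mul_eq_mul_left_iff] at h
      obtain ⟨h1, h2⟩ := h
      ext <;> simp <;> omega
    have hre : ∑' m : ℕ × ℕ, Fe2 H r j k u₁ u₂ g e m.1 m.2 =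
        ∑' n : ℕ × ℕ, Fe2 H r j k u₁ u₂ g e (e * n.1) (e * n.2) := by
      refine (hinj.tsum_eq (f := fun m : ℕ × ℕ => Fe2 H r j k u₁ u₂ g e m.1 m.2) ?_).symm
      rintro ⟨m₁, m₂⟩ hm
      have h : Cnd r g m₁ m₂ ∧ e ∣ m₁ ∧ e ∣ m₂ := by
        by_contra h
        exact hm (if_neg h)
      obtain ⟨a, ha⟩ := h.2.1
      obtain ⟨b, hb⟩ := h.2.2
      exact ⟨(a, b), by simp [ha, hb]⟩
    have hcast : ‖∑' m : ℕ × ℕ, Fe2 H r j k u₁ u₂ g e m.1 m.2‖ₑ =
        ‖∫ v : ℝ, Kc2 θ H j k g e v * (Tf θ v (e * g * r) k (u₁ * g * e) *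
          Tf θ v (e * g * r) k (u₂ * g * e))‖ₑ := by
      rw [hre, ← tsum_integral2 hco θ hθ (e * g * r) k (u₁ * g * e) (u₂ * g * e) hU₁ hU₂ _
        (Kc2_int hco hk θ H hθ hθ' hH j k g e hj he)]
      simp_rw [← Fe2_eq_integral hco hk θ H hθ hθ' hH j k g e r hj u₁ u₂ hge]
      rw [← Complex.ofReal_tsum]
      simp [enorm_eq_nnnorm]
    rw [hcast, ← mul_assoc, ← ENNReal.ofReal_mul (by positivity), ← lintegral_const_mul']
    · refine (enorm_integral_le_lintegral_enorm _).trans (lintegral_mono fun v => ?_)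
      rw [← ENNReal.ofReal_mul (by
        have := dv_nonneg g
        have := dv_nonneg e
        positivity), ← ofReal_norm]
      apply ENNReal.ofReal_le_ofReal
      rw [norm_mul, norm_mul]
      refine (mul_le_mul_of_nonneg_right
        (Kc2_norm hco θ H hθ hθ' hH j k g e hj he v C hC (hb v)) (by positivity)).trans ?_
      apply le_of_eq
      ring
    · exact ENNReal.ofReal_ne_top
  · have : ∀ m : ℕ × ℕ, Fe2 H r j k u₁ u₂ g e m.1 m.2 = 0 := by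
      rintro ⟨m₁, m₂⟩
      simp only [Fe2]
      rw [if_neg]
      rintro ⟨h1, ⟨a, ha⟩, ⟨b, hb⟩⟩
      subst ha hb
      rw [cnd_mul] at h1
      exact hge h1.1
    simp [this]

end Sep2

/-- Module D2. -/
theorem pfSep2 (hco : StCoef) (hk : StKer) : StSep2 := by
  obtain ⟨C, hC, hb⟩ := hk.kbound
  refine ⟨C, hC, fun θ hθ hθ' H R j k u₁ u₂ hH hR hj hu₁ hu₂ => ?_⟩
  refine (Sep2.AG_le hco hk H R j k u₁ u₂ hu₁ hu₂).trans ?_
  rw [← ENNReal.tsum_mul_left]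
  refine ENNReal.tsum_le_tsum fun g => ?_
  rw [← ENNReal.tsum_mul_left]
  refine ENNReal.tsum_le_tsum fun e => ?_
  exact Sep2.one_pair2 hco hk θ H hθ hθ' hH j k g e R hj u₁ u₂ hu₁ hu₂ C hC
    (fun v => hb θ v hθ (by linarith))

end P004G
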