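import Vale.Agent.P004.H2
import Vale.Agent.P004.H3
import Vale.Agent.P004G.H253.TwDefs

/-!
# P004G, module D : the sum of the weights (`Tw.StWts`)
-/

open Real MeasureTheory Set Filter
open scoped ENNReal Topology

namespace P004G

variable [Crv]

namespace Tw

open P004

lemma dv_le_of_dvd {a b : ℕ} (hb : b ≠ 0) (h : a ∣ b) : dv a ≤ dv b := by
  unfold dv
  exact_mod_cast Finset.card_le_card (Nat.divisors_subset_of_dvd hb h)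

lemma sqrt_mul_rpow {n : ℕ} (hn : 0 < n) (θ : ℝ) :
    √(n : ℝ) * (n : ℝ) ^ (-1 - θ) = (n : ℝ) ^ (-1 / 2 - θ) := by
  have hn' : (0 : ℝ) < n := by exact_mod_cast hn
  rw [Real.sqrt_eq_rpow, ← Real.rpow_add hn']
  congr 1; ring

/-- the bound for one term -/
lemma wt_term (hC : StCoef) (A : ℕ) {θ : ℝ} (hθ : 0 < θ) {t r₁ r₂ d₁ d₂ : ℕ} (ht : t ≠ 0)
    (hr₁ : r₁ ≠ 0) (hr₂ : r₂ ≠ 0) (hd₁ : d₁ ∣ t * r₁ * r₂) (hd₂ : d₂ ∣ t * r₁ * r₂) :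
    |(ca r₁ : ℝ) * ca d₁ * (ca r₂ * ca d₂)| *
      dv (t * (r₁ * d₁) * (r₂ * d₂)) ^ A * dv (t * r₁ * r₂) ^ A *
      ((r₁ : ℝ) * d₁ * (r₂ * d₂)) ^ (-1 - θ) ≤
    dv (t * r₁ * r₂) ^ (4 * A + 4) * ((r₁ : ℝ) ^ (-1 / 2 - θ) * (r₂ : ℝ) ^ (-1 / 2 - θ)) := by
  set R : ℕ := t * r₁ * r₂ with hR
  have hR0 : R ≠ 0 := by rw [hR]; positivity
  have hd₁0 : 0 < d₁ := Nat.pos_of_dvd_of_pos hd₁ (Nat.pos_of_ne_zero hR0)
  have hd₂0 : 0 < d₂ := Nat.pos_of_dvd_of_pos hd₂ (Nat.pos_of_ne_zero hR0)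
  have hr₁0 : 0 < r₁ := Nat.pos_of_ne_zero hr₁
  have hr₂0 : 0 < r₂ := Nat.pos_of_ne_zero hr₂
  have e1 : (1 : ℝ) ≤ dv R := H3.one_le_dv hR0
  have b1 : dv r₁ ≤ dv R := dv_le_of_dvd hR0 ⟨t * r₂, by rw [hR]; ring⟩
  have b2 : dv r₂ ≤ dv R := dv_le_of_dvd hR0 ⟨t * r₁, by rw [hR]; ring⟩
  have b3 : dv d₁ ≤ dv R := dv_le_of_dvd hR0 hd₁
  have b4 : dv d₂ ≤ dv R := dv_le_of_dvd hR0 hd₂
  have n1 := H3.dv_nonneg r₁
  have n2 := H3.dv_nonneg r₂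
  have n3 := H3.dv_nonneg d₁
  have n4 := H3.dv_nonneg d₂
  have b5 : dv (t * (r₁ * d₁) * (r₂ * d₂)) ≤ dv R ^ 3 := by
    have : t * (r₁ * d₁) * (r₂ * d₂) = R * (d₁ * d₂) := by rw [hR]; ring
    rw [this]
    calc dv (R * (d₁ * d₂)) ≤ dv R * dv (d₁ * d₂) := H3.dv_mul_le _ _
      _ ≤ dv R * (dv d₁ * dv d₂) := by
        gcongr
        exact H3.dv_mul_le _ _
      _ ≤ dv R * (dv R * dv R) := by gcongr
      _ = dv R ^ 3 := by ring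
  have b6 : |(ca r₁ : ℝ) * ca d₁ * (ca r₂ * ca d₂)| ≤
      dv R ^ 4 * (√(r₁ : ℝ) * √(d₁ : ℝ) * (√(r₂ : ℝ) * √(d₂ : ℝ))) := by
    rw [abs_mul, abs_mul, abs_mul]
    calc |(ca r₁ : ℝ)| * |(ca d₁ : ℝ)| * (|(ca r₂ : ℝ)| * |(ca d₂ : ℝ)|)
        ≤ (dv R * √(r₁ : ℝ)) * (dv R * √(d₁ : ℝ)) * ((dv R * √(r₂ : ℝ)) *
          (dv R * √(d₂ : ℝ))) := by
          gcongr
          · exact (hC.bound r₁).trans (by gcongr)
          · exact (hC.bound d₁).trans (by gcongr)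
          · exact (hC.bound r₂).trans (by gcongr)
          · exact (hC.bound d₂).trans (by gcongr)
      _ = _ := by ring
  have b7 : ∀ d : ℕ, 0 < d → √(d : ℝ) * (d : ℝ) ^ (-1 - θ) ≤ 1 := by
    intro d hd
    rw [sqrt_mul_rpow hd]
    exact Real.rpow_le_one_of_one_le_of_nonpos (by exact_mod_cast hd) (by linarith)
  have b8 : ((r₁ : ℝ) * d₁ * (r₂ * d₂)) ^ (-1 - θ) =
      (r₁ : ℝ) ^ (-1 - θ) * (d₁ : ℝ) ^ (-1 - θ) * ((r₂ : ℝ) ^ (-1 - θ) *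
        (d₂ : ℝ) ^ (-1 - θ)) := by
    rw [Real.mul_rpow (by positivity) (by positivity), Real.mul_rpow (by positivity)
      (by positivity), Real.mul_rpow (by positivity) (by positivity)]
  rw [b8]
  calc |(ca r₁ : ℝ) * ca d₁ * (ca r₂ * ca d₂)| *
      dv (t * (r₁ * d₁) * (r₂ * d₂)) ^ A * dv R ^ A *
      ((r₁ : ℝ) ^ (-1 - θ) * (d₁ : ℝ) ^ (-1 - θ) * ((r₂ : ℝ) ^ (-1 - θ) *
        (d₂ : ℝ) ^ (-1 - θ)))
      ≤ (dv R ^ 4 * (√(r₁ : ℝ) * √(d₁ : ℝ) * (√(r₂ : ℝ) * √(d₂ : ℝ)))) *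
      (dv R ^ 3) ^ A * dv R ^ A *
      ((r₁ : ℝ) ^ (-1 - θ) * (d₁ : ℝ) ^ (-1 - θ) * ((r₂ : ℝ) ^ (-1 - θ) *
        (d₂ : ℝ) ^ (-1 - θ))) := by
        have n5 := H3.dv_nonneg (t * (r₁ * d₁) * (r₂ * d₂))
        gcongr
    _ = dv R ^ (4 * A + 4) * ((√(r₁ : ℝ) * (r₁ : ℝ) ^ (-1 - θ)) *
        (√(r₂ : ℝ) * (r₂ : ℝ) ^ (-1 - θ)) * ((√(d₁ : ℝ) * (d₁ : ℝ) ^ (-1 - θ)) *
        (√(d₂ : ℝ) * (d₂ : ℝ) ^ (-1 - θ)))) := by ring
    _ ≤ dv R ^ (4 * A + 4) * ((√(r₁ : ℝ) * (r₁ : ℝ) ^ (-1 - θ)) *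
        (√(r₂ : ℝ) * (r₂ : ℝ) ^ (-1 - θ)) * (1 * 1)) := by
        have h1 := b7 d₁ hd₁0
        have h2 := b7 d₂ hd₂0
        gcongr
    _ = _ := by rw [sqrt_mul_rpow hr₁0, sqrt_mul_rpow hr₂0]; ring

open scoped Classical in
/-- the sum of the weights -/
theorem pfWts (hC : StCoef) (hD : StDiv) : StWts := by
  intro A
  obtain ⟨C, hC0, B, hB⟩ := hD.2 (4 * A + 6)
  refine ⟨(C + 1) ^ 2, one_le_pow₀ (by linarith), 2 * B + (4 * A + 6), ?_⟩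
  intro θ hθ hθ1 t ht
  have ht1 : 1 ≤ dv t := H3.one_le_dv ht
  rw [ENNReal.tsum_prod']
  have h1 : ∀ r : Pw × Pw, ∑' d : ℕ × ℕ, (if Cd t (r, d) then
      ENNReal.ofReal (|(ca r.1 : ℝ) * ca d.1 * (ca r.2 * ca d.2)| *
      dv (t * (r.1 * d.1) * (r.2 * d.2)) ^ A * dv (t * r.1 * r.2) ^ A *
      ((r.1 : ℝ) * d.1 * (r.2 * d.2)) ^ (-1 - θ)) else 0) ≤
      ENNReal.ofReal (dv t ^ (4 * A + 6)) *
        (ENNReal.ofReal (dv r.1 ^ (4 * A + 6) * (r.1 : ℝ) ^ (-1 / 2 - θ)) *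
          ENNReal.ofReal (dv r.2 ^ (4 * A + 6) * (r.2 : ℝ) ^ (-1 / 2 - θ))) := by
    intro r
    have hr₁ : (r.1 : ℕ) ≠ 0 := r.1.2.1
    have hr₂ : (r.2 : ℕ) ≠ 0 := r.2.2.1
    set R : ℕ := t * r.1 * r.2 with hR
    have hR0 : R ≠ 0 := Nat.mul_ne_zero (Nat.mul_ne_zero ht hr₁) hr₂
    set S : Finset (ℕ × ℕ) := R.divisors ×ˢ R.divisors with hS
    set c : ℝ := dv R ^ (4 * A + 4) *
      (((r.1 : ℕ) : ℝ) ^ (-1 / 2 - θ) * ((r.2 : ℕ) : ℝ) ^ (-1 / 2 - θ)) with hc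
    have hc0 : 0 ≤ c := by
      have := H3.dv_nonneg R
      positivity
    have h2 : ∀ d : ℕ × ℕ, (if Cd t (r, d) then
      ENNReal.ofReal (|(ca r.1 : ℝ) * ca d.1 * (ca r.2 * ca d.2)| *
      dv (t * (r.1 * d.1) * (r.2 * d.2)) ^ A * dv (t * r.1 * r.2) ^ A *
      ((r.1 : ℝ) * d.1 * (r.2 * d.2)) ^ (-1 - θ)) else 0) ≤
      (if d ∈ S then ENNReal.ofReal c else 0) := by
      intro d
      by_cases hd : Cd t (r, d)
      · have hd₁ : d.1 ∣ R := hd.1.2.2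
        have hd₂ : d.2 ∣ R := hd.2.2.2
        have hmem : d ∈ S := by
          rw [hS, Finset.mem_product, Nat.mem_divisors, Nat.mem_divisors]
          exact ⟨⟨hd₁, hR0⟩, ⟨hd₂, hR0⟩⟩
        rw [if_pos hd, if_pos hmem]
        exact ENNReal.ofReal_le_ofReal (wt_term hC A hθ ht hr₁ hr₂ hd₁ hd₂)
      · rw [if_neg hd]; exact zero_le
    refine (ENNReal.tsum_le_tsum h2).trans ?_
    rw [tsum_eq_sum (s := S) (fun d hd => if_neg hd), Finset.sum_congr rfl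
      (fun d hd => if_pos hd), Finset.sum_const, nsmul_eq_mul]
    have hcard : (S.card : ℝ≥0∞) = ENNReal.ofReal (dv R ^ 2) := by
      rw [hS, Finset.card_product]
      unfold dv
      rw [← ENNReal.ofReal_natCast]
      congr 1
      push_cast
      ring
    have hd1 := H3.dv_nonneg (r.1 : ℕ)
    have hd2 := H3.dv_nonneg (r.2 : ℕ)
    have hdt := H3.dv_nonneg t
    have hdR := H3.dv_nonneg R
    rw [hcard, ← ENNReal.ofReal_mul (by positivity), ← ENNReal.ofReal_mul (by positivity),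
      ← ENNReal.ofReal_mul (by positivity)]
    apply ENNReal.ofReal_le_ofReal
    have hdR2 : dv R ≤ dv t * dv r.1 * dv r.2 := by
      rw [hR]
      calc dv (t * r.1 * r.2) ≤ dv (t * r.1) * dv r.2 := H3.dv_mul_le _ _
        _ ≤ dv t * dv r.1 * dv r.2 := by
          gcongr
          exact H3.dv_mul_le _ _
    calc dv R ^ 2 * c = dv R ^ (4 * A + 6) *
          (((r.1 : ℕ) : ℝ) ^ (-1 / 2 - θ) * ((r.2 : ℕ) : ℝ) ^ (-1 / 2 - θ)) := by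
          rw [hc]; ring
      _ ≤ (dv t * dv r.1 * dv r.2) ^ (4 * A + 6) *
          (((r.1 : ℕ) : ℝ) ^ (-1 / 2 - θ) * ((r.2 : ℕ) : ℝ) ^ (-1 / 2 - θ)) := by gcongr
      _ = _ := by rw [mul_pow, mul_pow]; ring
  refine (ENNReal.tsum_le_tsum h1).trans ?_
  rw [ENNReal.tsum_mul_left, ENNReal.tsum_prod']
  have h3 : ∑' (a : Pw) (b : Pw),
      ENNReal.ofReal (dv a ^ (4 * A + 6) * (a : ℝ) ^ (-1 / 2 - θ)) *
          ENNReal.ofReal (dv b ^ (4 * A + 6) * (b : ℝ) ^ (-1 / 2 - θ)) =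
      (∑' a : Pw, ENNReal.ofReal (dv a ^ (4 * A + 6) * (a : ℝ) ^ (-1 / 2 - θ))) *
      ∑' b : Pw, ENNReal.ofReal (dv b ^ (4 * A + 6) * (b : ℝ) ^ (-1 / 2 - θ)) := by
    rw [← ENNReal.tsum_mul_right]
    refine tsum_congr fun a => ?_
    rw [ENNReal.tsum_mul_left]
  rw [h3]
  have h4 := hB θ hθ hθ1
  calc ENNReal.ofReal (dv t ^ (4 * A + 6)) *
        ((∑' a : Pw, ENNReal.ofReal (dv a ^ (4 * A + 6) * (a : ℝ) ^ (-1 / 2 - θ))) *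
      ∑' b : Pw, ENNReal.ofReal (dv b ^ (4 * A + 6) * (b : ℝ) ^ (-1 / 2 - θ)))
      ≤ ENNReal.ofReal (dv t ^ (4 * A + 6)) * (ENNReal.ofReal (C * (1 / θ) ^ B) *
        ENNReal.ofReal (C * (1 / θ) ^ B)) := by gcongr
    _ = ENNReal.ofReal (dv t ^ (4 * A + 6) * ((C * (1 / θ) ^ B) * (C * (1 / θ) ^ B))) := by
        rw [← ENNReal.ofReal_mul (by positivity), ← ENNReal.ofReal_mul (by positivity)]
    _ ≤ _ := by
        apply ENNReal.ofReal_le_ofReal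
        have hθ2 : 1 ≤ 1 / θ := by rw [le_div_iff₀ hθ]; linarith
        calc dv t ^ (4 * A + 6) * ((C * (1 / θ) ^ B) * (C * (1 / θ) ^ B))
            ≤ dv t ^ (4 * A + 6) * (((C + 1) * (1 / θ) ^ B) * ((C + 1) * (1 / θ) ^ B)) := by
              gcongr <;> linarith
          _ = (C + 1) ^ 2 * (1 / θ) ^ (2 * B) * dv t ^ (4 * A + 6) := by ring
          _ ≤ (C + 1) ^ 2 * (1 / θ) ^ (2 * B + (4 * A + 6)) * dv t ^ (2 * B + (4 * A + 6)) := by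
              have e1 : (1 / θ) ^ (2 * B) ≤ (1 / θ) ^ (2 * B + (4 * A + 6)) :=
                pow_le_pow_right₀ hθ2 (by omega)
              have e2 : dv t ^ (4 * A + 6) ≤ dv t ^ (2 * B + (4 * A + 6)) :=
                pow_le_pow_right₀ ht1 (by omega)
              gcongr

end Tw
end P004G
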