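import Vale.Agent.P004G.H3
import Vale.Agent.P004G.Iface

/-!
# P004G, module D3 : the bound for the dual sum, one `j ≥ 1` (`StAG`)
-/

open Real MeasureTheory Set Filter
open scoped ENNReal Topology

namespace P004G

variable [Crv]
namespace AGm
open H3

/-- Cauchy-Schwarz on `(V, ∞)` with the weight `u^(1+2θ)` -/
lemma cs_one {θ V : ℝ} (hθ : 0 < θ) (hV : 0 < V) (f : ℝ → ℝ≥0∞) (hf : Measurable f) :
    ∫⁻ u in Ioi V, f u ≤
      (∫⁻ u in Ioi (0 : ℝ), f u ^ 2 * ENNReal.ofReal (u ^ (1 + 2 * θ))) ^ (1 / 2 : ℝ) *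
        (ENNReal.ofReal (V ^ (-2 * θ) / (2 * θ))) ^ (1 / 2 : ℝ) := by
  have hpq : (2 : ℝ).HolderConjugate 2 := Real.HolderConjugate.two_two
  have hm1 : Measurable fun u : ℝ => f u * ENNReal.ofReal (u ^ ((1 + 2 * θ) / 2)) :=
    hf.mul (Measurable.ennreal_ofReal (measurable_id.pow_const _))
  have hm2 : Measurable fun u : ℝ => ENNReal.ofReal (u ^ (-(1 + 2 * θ) / 2)) :=
    Measurable.ennreal_ofReal (measurable_id.pow_const _)
  have h0 : ∫⁻ u in Ioi V, f u = ∫⁻ u in Ioi V,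
      ((fun u : ℝ => f u * ENNReal.ofReal (u ^ ((1 + 2 * θ) / 2))) *
        (fun u : ℝ => ENNReal.ofReal (u ^ (-(1 + 2 * θ) / 2)))) u := by
    refine setLIntegral_congr_fun measurableSet_Ioi fun u hu => ?_
    have hu : 0 < u := hV.trans hu
    simp only [Pi.mul_apply]
    rw [mul_assoc, ← ENNReal.ofReal_mul (by positivity), ← Real.rpow_add hu,
      show (1 + 2 * θ) / 2 + -(1 + 2 * θ) / 2 = 0 by ring]
    simp
  rw [h0]
  refine (ENNReal.lintegral_mul_le_Lp_mul_Lq _ hpq hm1.aemeasurable hm2.aemeasurable).trans ?_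
  refine mul_le_mul' (ENNReal.rpow_le_rpow ?_ (by norm_num))
    (ENNReal.rpow_le_rpow ?_ (by norm_num))
  · refine le_trans (lintegral_mono_set (Ioi_subset_Ioi hV.le)) (le_of_eq ?_)
    refine setLIntegral_congr_fun measurableSet_Ioi fun u hu => ?_
    have hu : 0 < u := hu
    rw [ENNReal.mul_rpow_of_nonneg _ _ (by norm_num), ENNReal.rpow_two,
      ENNReal.ofReal_rpow_of_nonneg (by positivity) (by norm_num), ← Real.rpow_mul hu.le]
    congr 3
    ring
  · have h1 : ∫⁻ u in Ioi V, ENNReal.ofReal (u ^ (-(1 + 2 * θ) / 2)) ^ (2 : ℝ) =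
        ∫⁻ u in Ioi V, ENNReal.ofReal (u ^ (-1 - 2 * θ)) := by
      refine setLIntegral_congr_fun measurableSet_Ioi fun u hu => ?_
      have hu : 0 < u := hV.trans hu
      rw [ENNReal.ofReal_rpow_of_nonneg (by positivity) (by norm_num), ← Real.rpow_mul hu.le]
      congr 2
      ring
    rw [h1, ← ofReal_integral_eq_lintegral_ofReal]
    · rw [integral_Ioi_rpow_of_lt (by linarith) hV]
      apply ENNReal.ofReal_le_ofReal
      apply le_of_eq
      rw [show -1 - 2 * θ + 1 = -2 * θ by ring, show (2 : ℝ) * θ = -(-2 * θ) by ring,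
        div_neg, neg_div]
    · exact integrableOn_Ioi_rpow_of_lt (by linarith) hV
    · refine (ae_restrict_iff' measurableSet_Ioi).2 (Eventually.of_forall fun u hu => ?_)
      have hu : 0 < u := hV.trans hu
      simp only [Pi.zero_apply]
      positivity

lemma cs_pair {θ V₁ V₂ : ℝ} (hθ : 0 < θ) (hV₁ : 0 < V₁) (hV₂ : 0 < V₂)
    (a : ℝ → ℝ → ℝ≥0∞) (ha : Measurable (Function.uncurry a)) (E : ℝ → ℝ≥0∞)
    (hE : Measurable E) :
    ∫⁻ u₁ in Ioi V₁, ∫⁻ u₂ in Ioi V₂, ∫⁻ v, E v * (a v u₁ * a v u₂) ≤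
      ENNReal.ofReal ((V₁ * V₂) ^ (-θ) / (2 * θ)) *
        ∫⁻ v, E v * ∫⁻ u in Ioi (0 : ℝ), a v u ^ 2 * ENNReal.ofReal (u ^ (1 + 2 * θ)) := by
  have hav : ∀ v, Measurable (a v) := fun v => ha.comp measurable_prodMk_left
  have hau : ∀ u, Measurable (fun v => a v u) := fun u => ha.comp measurable_prodMk_right
  have hG : ∀ V : ℝ, Measurable fun v => ∫⁻ u in Ioi V, a v u := by
    intro V
    exact Measurable.lintegral_prod_right' (f := fun p : ℝ × ℝ => a p.1 p.2) ha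
  have e1 : ∀ u₁ : ℝ, ∫⁻ u₂ in Ioi V₂, ∫⁻ v, E v * (a v u₁ * a v u₂) =
      ∫⁻ v, E v * (a v u₁ * ∫⁻ u₂ in Ioi V₂, a v u₂) := by
    intro u₁
    rw [lintegral_lintegral_swap]
    · refine lintegral_congr fun v => ?_
      rw [lintegral_const_mul _ ((hav v).const_mul _), lintegral_const_mul _ (hav v)]
    · have : Measurable fun p : ℝ × ℝ => E p.2 * (a p.2 u₁ * a p.2 p.1) :=
        (hE.comp measurable_snd).mul (((hau u₁).comp measurable_snd).mul
          (ha.comp (measurable_snd.prodMk measurable_fst)))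
      exact this.aemeasurable
  have e2 : ∫⁻ u₁ in Ioi V₁, ∫⁻ u₂ in Ioi V₂, ∫⁻ v, E v * (a v u₁ * a v u₂) =
      ∫⁻ v, E v * ((∫⁻ u₁ in Ioi V₁, a v u₁) * ∫⁻ u₂ in Ioi V₂, a v u₂) := by
    simp_rw [e1]
    rw [lintegral_lintegral_swap]
    · refine lintegral_congr fun v => ?_
      rw [lintegral_const_mul _ ((hav v).mul_const _), lintegral_mul_const _ (hav v)]
    · have : Measurable fun p : ℝ × ℝ => E p.2 * (a p.2 p.1 * ∫⁻ u₂ in Ioi V₂, a p.2 u₂) :=
        (hE.comp measurable_snd).mul ((ha.comp (measurable_snd.prodMk measurable_fst)).mul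
          ((hG V₂).comp measurable_snd))
      exact this.aemeasurable
  rw [e2, ← lintegral_const_mul' _ _ ENNReal.ofReal_ne_top]
  refine lintegral_mono fun v => ?_
  refine le_trans ?_ (le_of_eq (mul_left_comm (E v) _ _))
  refine mul_le_mul' le_rfl ?_
  refine (mul_le_mul' (cs_one hθ hV₁ _ (hav v)) (cs_one hθ hV₂ _ (hav v))).trans ?_
  set N := ∫⁻ u in Ioi (0 : ℝ), a v u ^ 2 * ENNReal.ofReal (u ^ (1 + 2 * θ)) with hN
  have h1 : N ^ (1 / 2 : ℝ) * N ^ (1 / 2 : ℝ) = N := by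
    rw [← ENNReal.rpow_add_of_nonneg _ _ (by norm_num) (by norm_num)]
    norm_num
  have h2 : ENNReal.ofReal (V₁ ^ (-2 * θ) / (2 * θ)) ^ (1 / 2 : ℝ) *
      ENNReal.ofReal (V₂ ^ (-2 * θ) / (2 * θ)) ^ (1 / 2 : ℝ) =
      ENNReal.ofReal ((V₁ * V₂) ^ (-θ) / (2 * θ)) := by
    rw [← ENNReal.mul_rpow_of_nonneg _ _ (by norm_num), ← ENNReal.ofReal_mul (by positivity),
      ENNReal.ofReal_rpow_of_nonneg (by positivity) (by norm_num)]
    congr 1
    have e3 : V₁ ^ (-2 * θ) / (2 * θ) * (V₂ ^ (-2 * θ) / (2 * θ)) =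
        ((V₁ * V₂) ^ (-θ) / (2 * θ)) ^ (2 : ℝ) := by
      rw [Real.div_rpow (by positivity) (by positivity), ← Real.rpow_mul (by positivity),
        Real.rpow_two, show -θ * 2 = -2 * θ by ring, Real.mul_rpow hV₁.le hV₂.le]
      field_simp
    rw [e3, ← Real.rpow_mul (by positivity)]
    norm_num
  calc N ^ (1 / 2 : ℝ) * ENNReal.ofReal (V₁ ^ (-2 * θ) / (2 * θ)) ^ (1 / 2 : ℝ) *
        (N ^ (1 / 2 : ℝ) * ENNReal.ofReal (V₂ ^ (-2 * θ) / (2 * θ)) ^ (1 / 2 : ℝ))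
      = (ENNReal.ofReal (V₁ ^ (-2 * θ) / (2 * θ)) ^ (1 / 2 : ℝ) *
      ENNReal.ofReal (V₂ ^ (-2 * θ) / (2 * θ)) ^ (1 / 2 : ℝ)) *
        (N ^ (1 / 2 : ℝ) * N ^ (1 / 2 : ℝ)) := by ring
    _ = _ := by rw [h1, h2]
    _ ≤ _ := le_rfl

lemma pairint {θ V₁ V₂ : ℝ} (hθ : 0 < θ) (hV₁ : 0 < V₁) (hV₂ : 0 < V₂) (R : ℕ) (m : ℤ)
    (g e : ℝ) :
    ∫⁻ u₁ in Ioi V₁, ∫⁻ u₂ in Ioi V₂, ∫⁻ v : ℝ, ENNReal.ofReal (Real.exp (-3 * π * |v|) *
        (‖TG θ R m (v, u₁ * g * e)‖ * ‖TG θ R m (v, u₂ * g * e)‖)) ≤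
      ENNReal.ofReal ((V₁ * V₂) ^ (-θ) / (2 * θ)) *
      ∫⁻ u in Ioi (0 : ℝ), (∫⁻ v : ℝ, ENNReal.ofReal (Real.exp (-3 * π * |v|) *
        ‖TG θ R m (v, u * g * e)‖ ^ 2)) * ENNReal.ofReal (u ^ (1 + 2 * θ)) := by
  have hmeas : Measurable fun p : ℝ × ℝ => ENNReal.ofReal ‖TG θ R m (p.1, p.2 * g * e)‖ := by
    have h1 := measurable_TG hθ R m
    have h2 : Measurable fun p : ℝ × ℝ => TG θ R m (p.1, p.2 * g * e) :=
      h1.comp (by fun_prop)
    exact h2.norm.ennreal_ofReal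
  have hE : Measurable fun v : ℝ => ENNReal.ofReal (Real.exp (-3 * π * |v|)) := by fun_prop
  have h := cs_pair hθ hV₁ hV₂ (fun v u => ENNReal.ofReal ‖TG θ R m (v, u * g * e)‖) hmeas
    (fun v => ENNReal.ofReal (Real.exp (-3 * π * |v|))) hE
  refine le_trans (le_of_eq ?_) (h.trans (le_of_eq ?_))
  · refine lintegral_congr fun u₁ => lintegral_congr fun u₂ => lintegral_congr fun v => ?_
    rw [ENNReal.ofReal_mul (by positivity), ENNReal.ofReal_mul (by positivity)]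
  · congr 1
    have e1 : ∫⁻ u in Ioi (0 : ℝ), (∫⁻ v : ℝ, ENNReal.ofReal (Real.exp (-3 * π * |v|) *
        ‖TG θ R m (v, u * g * e)‖ ^ 2)) * ENNReal.ofReal (u ^ (1 + 2 * θ)) =
        ∫⁻ u in Ioi (0 : ℝ), ∫⁻ v : ℝ, ENNReal.ofReal (Real.exp (-3 * π * |v|)) *
          (ENNReal.ofReal ‖TG θ R m (v, u * g * e)‖ ^ 2 * ENNReal.ofReal (u ^ (1 + 2 * θ))) := by
      refine lintegral_congr fun u => ?_
      rw [← lintegral_mul_const' _ _ ENNReal.ofReal_ne_top]
      refine lintegral_congr fun v => ?_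
      rw [ENNReal.ofReal_mul (by positivity), ENNReal.ofReal_pow (by positivity)]
      ring
    rw [e1, lintegral_lintegral_swap]
    · refine lintegral_congr fun v => ?_
      rw [lintegral_const_mul' _ _ ENNReal.ofReal_ne_top]
    · have : Measurable fun p : ℝ × ℝ => ENNReal.ofReal (Real.exp (-3 * π * |p.2|)) *
          (ENNReal.ofReal ‖TG θ R m (p.2, p.1 * g * e)‖ ^ 2 *
            ENNReal.ofReal (p.1 ^ (1 + 2 * θ))) := by
        have h3 : Measurable fun p : ℝ × ℝ =>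
            ENNReal.ofReal ‖TG θ R m (p.2, p.1 * g * e)‖ ^ 2 :=
          (hmeas.comp (measurable_snd.prodMk measurable_fst)).pow_const 2
        have h4 : Measurable fun p : ℝ × ℝ => ENNReal.ofReal (p.1 ^ (1 + 2 * θ)) :=
          Measurable.ennreal_ofReal (measurable_fst.pow_const _)
        exact (hE.comp measurable_snd).mul (h3.mul h4)
      exact this.aemeasurable

end AGm

open H3 AGm in
set_option maxHeartbeats 1600000 in
/-- Module D3. -/
theorem pfAG (hSep : StSep2) (hConv : StConv) (hFrac : StFrac) (hDiv : StDiv) : StAG := by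
  obtain ⟨CS, hCS, hS⟩ := hSep
  obtain ⟨CG, hCG, AG', hG⟩ := hConv
  obtain ⟨CF, hCF, hF⟩ := hFrac
  obtain ⟨M, hM, hv⟩ := vint
  obtain ⟨C1, hC1, A1, h1⟩ := hDiv.1 (3 + AG')
  obtain ⟨C2, hC2, A2, h2⟩ := hDiv.1 (2 + AG')
  refine ⟨CS * M * CF * CG * C1 * C2, by positivity, AG' + 2 + A1 + A2 + 1, ?_⟩
  intro θ hθ hθ8 H V₁ V₂ R j k₁ k₂ ε hε hH hV₁ hV₂ hR hj hk₁ hk₂
  have hε0 : ε ≠ 0 := by
    intro h
    rw [h] at hε
    simp at hε
  have hk₁0 : 0 < k₁ := Nat.pos_of_ne_zero hk₁.ne_zero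
  have hj' : (0 : ℝ) < j := by exact_mod_cast hj
  set k : ℕ := k₁ * k₂ ^ 2 with hk
  set B : ℝ := M * CF * CG * (1 / θ) ^ (AG' + 2) * dv R ^ AG' * dv k₂ ^ AG' with hB
  have hdr := one_le_dv hR.ne'
  have hdj := one_le_dv hk₂.ne'
  have hB0 : 0 ≤ B := by positivity
  set Q : ℝ := (V₁ * V₂) ^ (-θ) / (2 * θ) with hQ
  have hQ0 : 0 ≤ Q := by positivity
  set w : ℕ → ℕ → ℝ≥0∞ := fun g e =>
    ENNReal.ofReal (g * dv g ^ 3 * (dv e ^ 2 * (e : ℝ) ^ (1 - 2 * θ))) with hw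
  set I : ℕ → ℕ → ℝ → ℝ → ℝ≥0∞ := fun g e u₁ u₂ =>
    ∫⁻ v : ℝ, ENNReal.ofReal (Real.exp (-3 * π * |v|) *
        (‖TG θ (e * g * R) (ε * (k : ℤ)) (v, u₁ * g * e)‖ *
          ‖TG θ (e * g * R) (ε * (k : ℤ)) (v, u₂ * g * e)‖)) with hI
  have hw0 : ∀ g e : ℕ, ¬ (0 < g ∧ 0 < e) → w g e = 0 := by
    intro g e hge
    simp only [hw]
    rw [not_and_or, Nat.pos_iff_ne_zero, Nat.pos_iff_ne_zero, not_not, not_not] at hge
    rcases hge with rfl | rfl
    · simp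
    · simp [dv_zero]
  have step1 : ∀ u₁ : ℝ, 0 < u₁ → ∀ u₂ : ℝ, 0 < u₂ → ENNReal.ofReal |AG H R j (ε * (k : ℤ)) u₁ u₂| ≤
      ENNReal.ofReal (CS * (j * H) ^ (-1 / 2 + θ)) * ∑' g : ℕ, ∑' e : ℕ,
        w g e * I g e u₁ u₂ := by
    intro u₁ hu₁ u₂ hu₂
    refine (hS θ hθ hθ8 H R j (ε * (k : ℤ)) u₁ u₂ hH hR hj hu₁ hu₂).trans (le_of_eq ?_)
    congr 1
    refine tsum_congr fun g => tsum_congr fun e => ?_
    by_cases hge : 0 < g ∧ 0 < e
    · have hg' : (0 : ℝ) < g := by exact_mod_cast hge.1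
      have he' : (0 : ℝ) < e := by exact_mod_cast hge.2
      simp only [hI]
      congr 1
      refine lintegral_congr fun v => ?_
      rw [TG_eq (by positivity), TG_eq (by positivity)]
    · have := hw0 g e hge
      rw [this]
      simp only [hw] at this
      rw [this]; simp
  have hmI3 : ∀ g e : ℕ, Measurable fun p : ℝ × ℝ => I g e p.1 p.2 := by
    intro g e
    have h1 := measurable_TG hθ (e * g * R) (ε * (k : ℤ))
    have h2 : Measurable fun p : (ℝ × ℝ) × ℝ => ENNReal.ofReal (Real.exp (-3 * π * |p.2|) *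
        (‖TG θ (e * g * R) (ε * (k : ℤ)) (p.2, p.1.1 * g * e)‖ *
          ‖TG θ (e * g * R) (ε * (k : ℤ)) (p.2, p.1.2 * g * e)‖)) := by
      refine Measurable.ennreal_ofReal ?_
      refine Measurable.mul (by fun_prop) (Measurable.mul ?_ ?_)
      · exact (h1.comp (by fun_prop)).norm
      · exact (h1.comp (by fun_prop)).norm
    exact h2.lintegral_prod_right'
  have hmI : ∀ g e : ℕ, ∀ u₁, Measurable fun u₂ => I g e u₁ u₂ :=
    fun g e u₁ => (hmI3 g e).comp measurable_prodMk_left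
  have hmI2 : ∀ g e : ℕ, Measurable fun u₁ => ∫⁻ u₂ in Ioi V₂, I g e u₁ u₂ :=
    fun g e => (hmI3 g e).lintegral_prod_right'
  calc ∫⁻ u₁ in Ioi V₁, ∫⁻ u₂ in Ioi V₂, ENNReal.ofReal |AG H R j (ε * (k : ℤ)) u₁ u₂|
      ≤ ∫⁻ u₁ in Ioi V₁, ∫⁻ u₂ in Ioi V₂, ENNReal.ofReal (CS * (j * H) ^ (-1 / 2 + θ)) *
        ∑' g : ℕ, ∑' e : ℕ, w g e * I g e u₁ u₂ :=
        setLIntegral_mono' measurableSet_Ioi fun u₁ hu₁ =>
          setLIntegral_mono' measurableSet_Ioi fun u₂ hu₂ =>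
            step1 u₁ (hV₁.trans hu₁) u₂ (hV₂.trans hu₂)
    _ = ∫⁻ u₁ in Ioi V₁, ENNReal.ofReal (CS * (j * H) ^ (-1 / 2 + θ)) *
        ∑' g : ℕ, ∑' e : ℕ, w g e * ∫⁻ u₂ in Ioi V₂, I g e u₁ u₂ := by
        refine lintegral_congr fun u₁ => ?_
        rw [lintegral_const_mul' _ _ ENNReal.ofReal_ne_top]
        congr 1
        rw [lintegral_tsum]
        · refine tsum_congr fun g => ?_
          rw [lintegral_tsum]
          · refine tsum_congr fun e => ?_
            rw [lintegral_const_mul' _ _ ENNReal.ofReal_ne_top]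
          · intro e
            exact ((hmI g e u₁).const_mul _).aemeasurable
        · intro g
          exact (Measurable.tsum fun e => (hmI g e u₁).const_mul _).aemeasurable
    _ = ENNReal.ofReal (CS * (j * H) ^ (-1 / 2 + θ)) * ∑' g : ℕ, ∑' e : ℕ,
        w g e * ∫⁻ u₁ in Ioi V₁, ∫⁻ u₂ in Ioi V₂, I g e u₁ u₂ := by
        rw [lintegral_const_mul' _ _ ENNReal.ofReal_ne_top]
        congr 1
        rw [lintegral_tsum]
        · refine tsum_congr fun g => ?_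
          rw [lintegral_tsum]
          · refine tsum_congr fun e => ?_
            rw [lintegral_const_mul' _ _ ENNReal.ofReal_ne_top]
          · intro e
            exact ((hmI2 g e).const_mul _).aemeasurable
        · intro g
          exact (Measurable.tsum fun e => (hmI2 g e).const_mul _).aemeasurable
    _ ≤ ENNReal.ofReal (CS * (j * H) ^ (-1 / 2 + θ)) * ∑' g : ℕ, ∑' e : ℕ,
        (ENNReal.ofReal (Q * B) * (Jm k₁ + 1)) *
          (ENNReal.ofReal (dv g ^ (3 + AG') * (g : ℝ) ^ (-1 - θ)) *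
          ENNReal.ofReal (dv e ^ (2 + AG') * (e : ℝ) ^ (-1 - θ))) := by
        refine mul_le_mul_right (ENNReal.tsum_le_tsum fun g => ENNReal.tsum_le_tsum fun e => ?_) _
        by_cases hge : 0 < g ∧ 0 < e
        · have hg' : (0 : ℝ) < g := by exact_mod_cast hge.1
          have he' : (0 : ℝ) < e := by exact_mod_cast hge.2
          have hin := inner hθ hCF hCG (AG := AG') R k₁ k₂ ε hε hR hk₂
            (fun v => hF θ hθ hθ8 v (ε * k₁) (mul_ne_zero hε0 (by exact_mod_cast hk₁0.ne')))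
            (fun v R hR => hG θ hθ hθ8 v (ε * k₁) R hR) hv hge.1 hge.2
          rw [← hk] at hin
          have hpi := pairint hθ hV₁ hV₂ (e * g * R) (ε * (k : ℤ)) g e
          refine (mul_le_mul_right (hpi.trans (mul_le_mul_right hin _)) _).trans ?_
          rw [← hB, ← hQ]
          have hdg := dv_nonneg g
          have hde := dv_nonneg e
          calc w g e * (ENNReal.ofReal Q * (ENNReal.ofReal (B * (dv g ^ AG' * dv e ^ AG' *
                ((g : ℝ) * e) ^ (-2 - 2 * θ))) * (Jm k₁ + 1)))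
              = ENNReal.ofReal (Q * B) * (Jm k₁ + 1) * ENNReal.ofReal
                ((g * dv g ^ 3 * (dv e ^ 2 * (e : ℝ) ^ (1 - 2 * θ))) *
                (dv g ^ AG' * dv e ^ AG' * ((g : ℝ) * e) ^ (-2 - 2 * θ))) := by
                simp only [hw]
                rw [ENNReal.ofReal_mul hQ0, ENNReal.ofReal_mul hB0,
                  ENNReal.ofReal_mul (p := g * dv g ^ 3 *
                  (dv e ^ 2 * (e : ℝ) ^ (1 - 2 * θ))) (by positivity)]
                ring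
            _ ≤ ENNReal.ofReal (Q * B) * (Jm k₁ + 1) * ENNReal.ofReal
                ((dv g ^ (3 + AG') * (g : ℝ) ^ (-1 - θ)) *
                  (dv e ^ (2 + AG') * (e : ℝ) ^ (-1 - θ))) := by
                exact mul_le_mul_right (ENNReal.ofReal_le_ofReal (weight_le hθ AG' hge.1 hge.2)) _
            _ = _ := by rw [ENNReal.ofReal_mul (p := dv g ^ (3 + AG') * (g : ℝ) ^ (-1 - θ))
                          (by positivity)]
        · rw [hw0 g e hge]; simp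
    _ = ENNReal.ofReal (CS * (j * H) ^ (-1 / 2 + θ)) * ((ENNReal.ofReal (Q * B) * (Jm k₁ + 1)) *
        ((∑' g : ℕ, ENNReal.ofReal (dv g ^ (3 + AG') * (g : ℝ) ^ (-1 - θ))) *
          ∑' e : ℕ, ENNReal.ofReal (dv e ^ (2 + AG') * (e : ℝ) ^ (-1 - θ)))) := by
        congr 1
        rw [← ENNReal.tsum_mul_right, ← ENNReal.tsum_mul_left]
        refine tsum_congr fun g => ?_
        rw [← ENNReal.tsum_mul_left, ← ENNReal.tsum_mul_left]
    _ ≤ ENNReal.ofReal (CS * (j * H) ^ (-1 / 2 + θ)) * ((ENNReal.ofReal (Q * B) * (Jm k₁ + 1)) *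
        (ENNReal.ofReal (C1 * (1 / θ) ^ A1) * ENNReal.ofReal (C2 * (1 / θ) ^ A2))) := by
        gcongr
        · exact h1 θ hθ (by linarith)
        · exact h2 θ hθ (by linarith)
    _ = ENNReal.ofReal ((CS * (j * H) ^ (-1 / 2 + θ)) * ((Q * B) * ((C1 * (1 / θ) ^ A1) *
        (C2 * (1 / θ) ^ A2)))) * (Jm k₁ + 1) := by
        rw [ENNReal.ofReal_mul (p := CS * (j * H) ^ (-1 / 2 + θ)) (by positivity),
          ENNReal.ofReal_mul (p := Q * B) (by positivity),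
          ENNReal.ofReal_mul (p := C1 * (1 / θ) ^ A1) (by positivity)]
        ring
    _ ≤ _ := by
        gcongr ENNReal.ofReal ?_ * _
        have hθ1 : 1 ≤ 1 / θ := by rw [le_div_iff₀ hθ]; linarith
        have hQ2 : Q ≤ (1 / θ) * (V₁ * V₂) ^ (-θ) := by
          rw [hQ, div_eq_mul_one_div, mul_comm]
          gcongr
          linarith
        have hX : 0 ≤ (V₁ * V₂) ^ (-θ) := by positivity
        calc (CS * (j * H) ^ (-1 / 2 + θ)) * ((Q * B) * ((C1 * (1 / θ) ^ A1) *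
              (C2 * (1 / θ) ^ A2)))
            ≤ (CS * (j * H) ^ (-1 / 2 + θ)) * ((((1 / θ) * (V₁ * V₂) ^ (-θ)) * B) *
              ((C1 * (1 / θ) ^ A1) * (C2 * (1 / θ) ^ A2))) := by gcongr
          _ = CS * M * CF * CG * C1 * C2 * (1 / θ) ^ (AG' + 2 + A1 + A2 + 1) *
              dv R ^ AG' * dv k₂ ^ AG' *
              (j * H) ^ (-1 / 2 + θ) * (V₁ * V₂) ^ (-θ) := by rw [hB]; ring
          _ ≤ CS * M * CF * CG * C1 * C2 * (1 / θ) ^ (AG' + 2 + A1 + A2 + 1) *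
              dv R ^ (AG' + 2 + A1 + A2 + 1) * dv k₂ ^ (AG' + 2 + A1 + A2 + 1) *
              (j * H) ^ (-1 / 2 + θ) * (V₁ * V₂) ^ (-θ) := by
              gcongr <;> omega
          _ = _ := by rfl

end P004G
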