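import Vale.Agent.P004G.H5
import Vale.Agent.P004G.Iface

/-!
# P004G, module D4 : the tail bound for the dual sum (`StTailAG`)
-/

open Real MeasureTheory Set Filter
open scoped ENNReal Topology

namespace P004G

variable [Crv]
namespace TailAG

/-- the kernel against the exponentials -/
lemma kernel2 (hK : StKer) : ∃ K : ℝ, 1 ≤ K ∧ ∀ Z y x₁ x₂ : ℝ, 0 < Z → 0 < x₁ → 0 < x₂ → 0 ≤ y →
    Z ≤ y * (x₁ * x₂) →
    Gk y * Real.exp (-π * (x₁ + x₂)) ≤
      K * Real.exp (-(Z ^ (2 / 21 : ℝ)) / 2) * Real.exp (-(3 / 2) * (x₁ + x₂)) := by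
  obtain ⟨C, hC, hd⟩ := hK.decay
  refine ⟨max C 5040, le_trans (by norm_num) (le_max_right _ _), ?_⟩
  intro Z y x₁ x₂ hZ hx₁ hx₂ hy hZy
  have hpi : 3 < π := Real.pi_gt_three
  have hz : 0 < Z ^ (2 / 21 : ℝ) := by positivity
  have h6 : 0 ≤ Gk y := hK.nonneg y
  by_cases hcase : x₁ + x₂ ≤ Z ^ (2 / 21 : ℝ)
  · have h1 : x₁ * x₂ ≤ Z ^ (4 / 21 : ℝ) := by
      calc x₁ * x₂ ≤ Z ^ (2 / 21 : ℝ) * Z ^ (2 / 21 : ℝ) := by
            gcongr
            · linarith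
            · linarith
        _ = Z ^ (4 / 21 : ℝ) := by rw [← Real.rpow_add hZ]; norm_num
    have h2 : Z ^ (17 / 21 : ℝ) ≤ y := by
      have h3 : Z ^ (17 / 21 : ℝ) * Z ^ (4 / 21 : ℝ) ≤ y * Z ^ (4 / 21 : ℝ) := by
        calc Z ^ (17 / 21 : ℝ) * Z ^ (4 / 21 : ℝ) = Z := by
              rw [← Real.rpow_add hZ]; norm_num
          _ ≤ y * (x₁ * x₂) := hZy
          _ ≤ y * Z ^ (4 / 21 : ℝ) := by gcongr
      exact le_of_mul_le_mul_right h3 (by positivity)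
    have h3 : Z ^ (2 / 21 : ℝ) ≤ y ^ (2 / 17 : ℝ) := by
      calc Z ^ (2 / 21 : ℝ) = (Z ^ (17 / 21 : ℝ)) ^ (2 / 17 : ℝ) := by
            rw [← Real.rpow_mul hZ.le]; norm_num
        _ ≤ _ := Real.rpow_le_rpow (by positivity) h2 (by norm_num)
    have h4 : Gk y ≤ max C 5040 * Real.exp (-(Z ^ (2 / 21 : ℝ)) / 2) := by
      refine (hd y hy).trans ?_
      gcongr
      exact le_max_left _ _
    have h5 : Real.exp (-π * (x₁ + x₂)) ≤ Real.exp (-(3 / 2) * (x₁ + x₂)) := by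
      apply Real.exp_le_exp.2
      nlinarith
    gcongr
  · push Not at hcase
    have h1 : Gk y ≤ max C 5040 := (hK.le y).trans (le_max_right _ _)
    have h8 : Real.exp (-π * (x₁ + x₂)) ≤
        Real.exp (-(Z ^ (2 / 21 : ℝ)) / 2) * Real.exp (-(3 / 2) * (x₁ + x₂)) := by
      rw [← Real.exp_add]
      apply Real.exp_le_exp.2
      nlinarith
    calc Gk y * Real.exp (-π * (x₁ + x₂))
        ≤ max C 5040 * (Real.exp (-(Z ^ (2 / 21 : ℝ)) / 2) *
          Real.exp (-(3 / 2) * (x₁ + x₂))) := by gcongr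
      _ = _ := by ring

lemma exp_half_le {x : ℝ} (hx : 0 < x) : Real.exp (-(x / 2)) ≤ 46080 / x ^ 6 := by
  have h := Real.pow_div_factorial_le_exp (x := x / 2) (by positivity) 6
  rw [Real.exp_neg, ← one_div, div_le_div_iff₀ (by positivity) (by positivity)]
  have h2 : ((Nat.factorial 6 : ℕ) : ℝ) = 720 := by norm_num [Nat.factorial]
  rw [h2, div_le_iff₀ (by norm_num)] at h
  calc 1 * x ^ 6 = 64 * (x / 2) ^ 6 := by ring
    _ ≤ 64 * (Real.exp (x / 2) * 720) := by gcongr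
    _ = 46080 * Real.exp (x / 2) := by ring

/-- the bound for one term -/
lemma term_bound2 (hK : StKer) : ∃ K : ℝ, 1 ≤ K ∧ ∀ (H V₁ V₂ u₁ u₂ : ℝ) (R j : ℕ) (k : ℤ)
    (t : ℕ × ℕ × ℕ), 0 < H → 0 < V₁ → 0 < V₂ → V₁ ≤ u₁ → V₂ ≤ u₂ → 0 < j →
    ‖AGTerm H R j k u₁ u₂ t‖ ≤
      K * Real.exp (-((j * H * V₁ * V₂) ^ (2 / 21 : ℝ)) / 2) * Real.exp (-(V₁ + V₂)) *
      (1 / u₁ ^ 6 * (1 / u₂ ^ 6)) *
      (1 / (t.1 : ℝ) ^ 2 * (1 / (t.2.1 : ℝ) ^ 2 * (1 / (t.2.2 : ℝ) ^ 2))) := by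
  obtain ⟨K, hK1, hKb⟩ := kernel2 hK
  refine ⟨6561 * 46080 ^ 2 * K, by linarith, ?_⟩
  rintro H V₁ V₂ u₁ u₂ R j k ⟨g, m₁, m₂⟩ hH hV₁ hV₂ hu₁ hu₂ hj
  have hu₁0 : 0 < u₁ := by linarith
  have hu₂0 : 0 < u₂ := by linarith
  have hj' : (0 : ℝ) < j := by exact_mod_cast hj
  unfold AGTerm
  simp only
  split_ifs with hsq
  · have hne := hsq.1.ne_zero
    have hg : 0 < g := Nat.pos_of_ne_zero fun h => hne (by simp [h])
    have hm₁ : 0 < m₁ := Nat.pos_of_ne_zero fun h => hne (by simp [h])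
    have hm₂ : 0 < m₂ := Nat.pos_of_ne_zero fun h => hne (by simp [h])
    have hg' : (1 : ℝ) ≤ g := by exact_mod_cast hg
    have hm₁' : (1 : ℝ) ≤ m₁ := by exact_mod_cast hm₁
    have hm₂' : (1 : ℝ) ≤ m₂ := by exact_mod_cast hm₂
    set x₁ : ℝ := g * m₁ * u₁ with hx₁
    set x₂ : ℝ := g * m₂ * u₂ with hx₂
    have hx₁0 : 0 < x₁ := by positivity
    have hx₂0 : 0 < x₂ := by positivity
    set Z : ℝ := j * H * V₁ * V₂ with hZ
    have hZ0 : 0 < Z := by positivity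
    set D : ℝ := ∑ d ∈ g.divisors, if d ∣ j then
        (ArithmeticFunction.moebius d : ℝ) / d *
          Gk ((j : ℝ) * H / ((d : ℝ) ^ 2 * (m₁ * m₂))) else 0 with hD
    have hDb : |D| * Real.exp (-π * (x₁ + x₂)) ≤
        g * (K * Real.exp (-(Z ^ (2 / 21 : ℝ)) / 2) * Real.exp (-(3 / 2) * (x₁ + x₂))) := by
      have h1 : |D| ≤ ∑ d ∈ g.divisors, Gk (j * H / ((d : ℝ) ^ 2 * (m₁ * m₂))) := by
        rw [hD]
        refine (Finset.abs_sum_le_sum_abs _ _).trans (Finset.sum_le_sum fun d hd => ?_)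
        have hdpos : 0 < d := Nat.pos_of_mem_divisors hd
        have hd1 : (1 : ℝ) ≤ d := by exact_mod_cast hdpos
        split_ifs with hdvd
        · rw [abs_mul, abs_of_nonneg (hK.nonneg _)]
          have h2 : |(ArithmeticFunction.moebius d : ℝ) / d| ≤ 1 := by
            rw [abs_div, div_le_one (by rw [abs_pos]; positivity)]
            have h3 : |(ArithmeticFunction.moebius d : ℝ)| ≤ 1 := by
              exact_mod_cast ArithmeticFunction.abs_moebius_le_one (n := d)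
            refine h3.trans ?_
            rw [abs_of_nonneg (by positivity)]; exact hd1
          calc |(ArithmeticFunction.moebius d : ℝ) / d| * Gk (j * H / ((d : ℝ) ^ 2 * (m₁ * m₂)))
              ≤ 1 * Gk (j * H / ((d : ℝ) ^ 2 * (m₁ * m₂))) := by
                gcongr
                exact hK.nonneg _
            _ = _ := one_mul _
        · rw [abs_zero]; exact hK.nonneg _
      calc |D| * Real.exp (-π * (x₁ + x₂))
          ≤ (∑ d ∈ g.divisors, Gk (j * H / ((d : ℝ) ^ 2 * (m₁ * m₂)))) *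
            Real.exp (-π * (x₁ + x₂)) := by gcongr
        _ = ∑ d ∈ g.divisors, Gk (j * H / ((d : ℝ) ^ 2 * (m₁ * m₂))) *
            Real.exp (-π * (x₁ + x₂)) := by rw [Finset.sum_mul]
        _ ≤ ∑ d ∈ g.divisors, (K * Real.exp (-(Z ^ (2 / 21 : ℝ)) / 2) *
            Real.exp (-(3 / 2) * (x₁ + x₂))) := by
            refine Finset.sum_le_sum fun d hd => ?_
            have hdpos : 0 < d := Nat.pos_of_mem_divisors hd
            have hd1 : (1 : ℝ) ≤ d := by exact_mod_cast hdpos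
            have hdg : (d : ℝ) ≤ g := by
              exact_mod_cast Nat.le_of_dvd hg (Nat.dvd_of_mem_divisors hd)
            refine hKb Z _ x₁ x₂ hZ0 hx₁0 hx₂0 (by positivity) ?_
            have e1 : j * H / ((d : ℝ) ^ 2 * (m₁ * m₂)) * (x₁ * x₂) =
                j * H * u₁ * u₂ * (g / d) ^ 2 := by
              rw [hx₁, hx₂]; field_simp
            rw [e1, hZ]
            have e2 : 1 ≤ ((g : ℝ) / d) ^ 2 := by
              apply one_le_pow₀
              rw [one_le_div (by linarith)]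
              exact hdg
            calc j * H * V₁ * V₂ = j * H * V₁ * V₂ * 1 := by ring
              _ ≤ j * H * u₁ * u₂ * (g / d) ^ 2 := by gcongr
        _ = (g.divisors.card : ℝ) * (K * Real.exp (-(Z ^ (2 / 21 : ℝ)) / 2) *
            Real.exp (-(3 / 2) * (x₁ + x₂))) := by rw [Finset.sum_const, nsmul_eq_mul]
        _ ≤ _ := by
            gcongr
            exact_mod_cast Nat.card_divisors_le_self g
    have hcg := H5.abs_ca_le g
    have hl₁ := H5.abs_lam_le hm₁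
    have hl₂ := H5.abs_lam_le hm₂
    have hchi := H5.abs_chi_le k (m₁ * m₂)
    have hexp : Real.exp (-π * g * (m₁ * u₁ + m₂ * u₂)) = Real.exp (-π * (x₁ + x₂)) := by
      congr 1; rw [hx₁, hx₂]; ring
    have hE1 : Real.exp (-(3 / 2) * (x₁ + x₂)) ≤ Real.exp (-(V₁ + V₂)) *
        (46080 / x₁ ^ 6 * (46080 / x₂ ^ 6)) := by
      have e1 : Real.exp (-(3 / 2) * (x₁ + x₂)) = Real.exp (-(x₁ + x₂)) *
          (Real.exp (-(x₁ / 2)) * Real.exp (-(x₂ / 2))) := by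
        rw [← Real.exp_add, ← Real.exp_add]; congr 1; ring
      rw [e1]
      have e2 : V₁ ≤ x₁ := by
        calc V₁ ≤ u₁ := hu₁
          _ = 1 * 1 * u₁ := by ring
          _ ≤ g * m₁ * u₁ := by gcongr
      have e3 : V₂ ≤ x₂ := by
        calc V₂ ≤ u₂ := hu₂
          _ = 1 * 1 * u₂ := by ring
          _ ≤ g * m₂ * u₂ := by gcongr
      gcongr
      · exact exp_half_le hx₁0
      · exact exp_half_le hx₂0
    rw [Real.norm_eq_abs, abs_mul, abs_mul, abs_mul, abs_mul, abs_mul, Real.abs_exp, hexp,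
      abs_pow]
    have hDb2 : |D| * Real.exp (-π * (x₁ + x₂)) ≤
        g * (K * Real.exp (-(Z ^ (2 / 21 : ℝ)) / 2) * (Real.exp (-(V₁ + V₂)) *
        (46080 / x₁ ^ 6 * (46080 / x₂ ^ 6)))) := hDb.trans (by gcongr)
    have hT0 : 0 ≤ |D| * Real.exp (-π * (x₁ + x₂)) := by positivity
    calc |(ca g : ℝ)| ^ 2 * (|lam m₁| * |lam m₂|) * |chi k (m₁ * m₂)| * |D| *
          Real.exp (-π * (x₁ + x₂))
        = |(ca g : ℝ)| ^ 2 * (|lam m₁| * |lam m₂|) * |chi k (m₁ * m₂)| * (|D| *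
          Real.exp (-π * (x₁ + x₂))) := by ring
      _ ≤ (9 * (g : ℝ) ^ 3) ^ 2 * ((9 * (m₁ : ℝ) ^ 3) * (9 * (m₂ : ℝ) ^ 3)) * 1 *
          (g * (K * Real.exp (-(Z ^ (2 / 21 : ℝ)) / 2) * (Real.exp (-(V₁ + V₂)) *
        (46080 / x₁ ^ 6 * (46080 / x₂ ^ 6))))) := by
          refine mul_le_mul ?_ hDb2 hT0 (by positivity)
          gcongr
      _ = 6561 * 46080 ^ 2 * K * Real.exp (-(Z ^ (2 / 21 : ℝ)) / 2) * Real.exp (-(V₁ + V₂)) *
          (1 / u₁ ^ 6 * (1 / u₂ ^ 6)) * (1 / (g : ℝ) ^ 5 * (1 / (m₁ : ℝ) ^ 3 *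
            (1 / (m₂ : ℝ) ^ 3))) := by
          rw [hx₁, hx₂]; field_simp; ring
      _ ≤ _ := by
          gcongr <;> norm_num
  · rw [norm_zero]; positivity

lemma int_pow {V : ℝ} (hV : 0 < V) :
    ∫⁻ u in Ioi V, ENNReal.ofReal (1 / u ^ 6) ≤ ENNReal.ofReal ((1 + 1 / V) ^ 8) := by
  have h1 : ∫⁻ u in Ioi V, ENNReal.ofReal (1 / u ^ 6) =
      ∫⁻ u in Ioi V, ENNReal.ofReal (u ^ (-6 : ℝ)) := by
    refine setLIntegral_congr_fun measurableSet_Ioi fun u hu => ?_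
    have hu : 0 < u := hV.trans hu
    congr 1
    rw [Real.rpow_neg hu.le, one_div]
    norm_cast
  rw [h1, ← ofReal_integral_eq_lintegral_ofReal]
  · rw [integral_Ioi_rpow_of_lt (by norm_num) hV]
    apply ENNReal.ofReal_le_ofReal
    have h2 : -V ^ (-6 + 1 : ℝ) / (-6 + 1) = (1 / 5) * (1 / V) ^ 5 := by
      rw [show (-6 + 1 : ℝ) = -5 by norm_num, Real.rpow_neg hV.le]
      have : V ^ (5 : ℝ) = V ^ (5 : ℕ) := by norm_cast
      rw [this]
      field_simp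
    rw [h2]
    have h3 : 0 < 1 / V := by positivity
    calc (1 / 5) * (1 / V) ^ 5 ≤ 1 * (1 + 1 / V) ^ 5 := by
          gcongr
          · norm_num
          · linarith
      _ = (1 + 1 / V) ^ 5 := one_mul _
      _ ≤ (1 + 1 / V) ^ 8 := by
          apply pow_le_pow_right₀ (by linarith) (by norm_num)
  · exact integrableOn_Ioi_rpow_of_lt (by norm_num) hV
  · refine (ae_restrict_iff' measurableSet_Ioi).2 (Eventually.of_forall fun u hu => ?_)
    have hu : 0 < u := hV.trans hu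
    simp only [Pi.zero_apply]
    positivity

end TailAG

open TailAG in
/-- Module D4. -/
theorem pfTailAG (hK : StKer) : StTailAG := by
  obtain ⟨K, hK1, hKb⟩ := term_bound2 hK
  have hs : Summable fun n : ℕ => 1 / (n : ℝ) ^ 2 := Real.summable_one_div_nat_pow.2 (by norm_num)
  have hs2 : Summable fun t : ℕ × ℕ => 1 / (t.1 : ℝ) ^ 2 * (1 / (t.2 : ℝ) ^ 2) :=
    hs.mul_of_nonneg hs (fun _ => by positivity) (fun _ => by positivity)
  have hs3 : Summable fun t : ℕ × ℕ × ℕ => 1 / (t.1 : ℝ) ^ 2 *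
      (1 / (t.2.1 : ℝ) ^ 2 * (1 / (t.2.2 : ℝ) ^ 2)) :=
    hs.mul_of_nonneg (g := fun t : ℕ × ℕ => 1 / (t.1 : ℝ) ^ 2 * (1 / (t.2 : ℝ) ^ 2)) hs2
      (fun _ => by positivity) (fun _ => by positivity)
  set S : ℝ := ∑' t : ℕ × ℕ × ℕ, 1 / (t.1 : ℝ) ^ 2 *
      (1 / (t.2.1 : ℝ) ^ 2 * (1 / (t.2.2 : ℝ) ^ 2)) with hS
  have hS0 : 0 ≤ S := tsum_nonneg fun _ => by positivity
  refine ⟨K * (S + 2), by nlinarith, ?_⟩
  intro H V₁ V₂ R j k hH hV₁ hV₂ hR hj
  have hj' : (0 : ℝ) < j := by exact_mod_cast hj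
  set Z : ℝ := (j * H * V₁ * V₂) ^ (2 / 21 : ℝ) with hZ
  have hZ0 : 0 ≤ Z := by positivity
  set Q : ℝ := K * S * Real.exp (-Z / 2) * Real.exp (-(V₁ + V₂)) with hQ
  have hQ0 : 0 ≤ Q := by positivity
  have hb : ∀ u₁ : ℝ, V₁ < u₁ → ∀ u₂ : ℝ, V₂ < u₂ → ENNReal.ofReal |AG H R j k u₁ u₂| ≤
      ENNReal.ofReal Q * (ENNReal.ofReal (1 / u₁ ^ 6) * ENNReal.ofReal (1 / u₂ ^ 6)) := by
    intro u₁ hu₁ u₂ hu₂
    have hu₁0 : 0 < u₁ := hV₁.trans hu₁
    have hu₂0 : 0 < u₂ := hV₂.trans hu₂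
    rw [← ENNReal.ofReal_mul (by positivity), ← ENNReal.ofReal_mul hQ0]
    apply ENNReal.ofReal_le_ofReal
    have h := tsum_of_norm_bounded (hs3.hasSum.mul_left
      (K * Real.exp (-((j * H * V₁ * V₂) ^ (2 / 21 : ℝ)) / 2) * Real.exp (-(V₁ + V₂)) *
      (1 / u₁ ^ 6 * (1 / u₂ ^ 6))))
      (fun t => hKb H V₁ V₂ u₁ u₂ R j k t hH hV₁ hV₂ hu₁.le hu₂.le hj)
    rw [Real.norm_eq_abs] at h
    refine h.trans (le_of_eq ?_)
    rw [← hS, ← hZ, hQ]
    ring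
  calc ∫⁻ u₁ in Ioi V₁, ∫⁻ u₂ in Ioi V₂, ENNReal.ofReal |AG H R j k u₁ u₂|
      ≤ ∫⁻ u₁ in Ioi V₁, ∫⁻ u₂ in Ioi V₂,
        ENNReal.ofReal Q * (ENNReal.ofReal (1 / u₁ ^ 6) * ENNReal.ofReal (1 / u₂ ^ 6)) :=
        setLIntegral_mono' measurableSet_Ioi fun u₁ hu₁ =>
          setLIntegral_mono' measurableSet_Ioi fun u₂ hu₂ => hb u₁ hu₁ u₂ hu₂
    _ = ENNReal.ofReal Q * ((∫⁻ u₁ in Ioi V₁, ENNReal.ofReal (1 / u₁ ^ 6)) *
        ∫⁻ u₂ in Ioi V₂, ENNReal.ofReal (1 / u₂ ^ 6)) := by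
        have hm : Measurable fun u : ℝ => ENNReal.ofReal (1 / u ^ 6) :=
          Measurable.ennreal_ofReal (by fun_prop)
        have e1 : ∀ u₁ : ℝ, ∫⁻ u₂ in Ioi V₂,
            ENNReal.ofReal Q * (ENNReal.ofReal (1 / u₁ ^ 6) * ENNReal.ofReal (1 / u₂ ^ 6)) =
            ENNReal.ofReal Q * (ENNReal.ofReal (1 / u₁ ^ 6) *
              ∫⁻ u₂ in Ioi V₂, ENNReal.ofReal (1 / u₂ ^ 6)) := by
          intro u₁
          rw [lintegral_const_mul' _ _ ENNReal.ofReal_ne_top,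
            lintegral_const_mul' _ _ ENNReal.ofReal_ne_top]
        simp_rw [e1]
        rw [lintegral_const_mul' _ _ ENNReal.ofReal_ne_top, lintegral_mul_const _ hm]
    _ ≤ ENNReal.ofReal Q * (ENNReal.ofReal ((1 + 1 / V₁) ^ 8) *
        ENNReal.ofReal ((1 + 1 / V₂) ^ 8)) := by
        gcongr
        · exact int_pow hV₁
        · exact int_pow hV₂
    _ = ENNReal.ofReal (Q * ((1 + 1 / V₁) ^ 8 * (1 + 1 / V₂) ^ 8)) := by
        rw [← ENNReal.ofReal_mul (by positivity), ← ENNReal.ofReal_mul hQ0]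
    _ ≤ _ := by
        apply ENNReal.ofReal_le_ofReal
        have h1 : Real.exp (-Z / 2) ≤ Real.exp (-Z / (K * (S + 2))) := by
          apply Real.exp_le_exp.2
          rw [neg_div, neg_div, neg_le_neg_iff]
          apply div_le_div_of_nonneg_left hZ0 (by norm_num) (by nlinarith)
        rw [hQ]
        calc K * S * Real.exp (-Z / 2) * Real.exp (-(V₁ + V₂)) *
              ((1 + 1 / V₁) ^ 8 * (1 + 1 / V₂) ^ 8)
            ≤ K * (S + 2) * Real.exp (-Z / (K * (S + 2))) * Real.exp (-(V₁ + V₂)) *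
              ((1 + 1 / V₁) ^ 8 * (1 + 1 / V₂) ^ 8) := by
              gcongr
              linarith
          _ = _ := by ring

end P004G
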